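import Vale.Agent.P271.M.OD
import Vale.Agent.P271.C.Bnd
import Vale.Agent.P271.G.Poly
import Vale.Agent.P271.A.DegAbs

/-! P271 M/Coer: coercivity and the expected level of a minimiser.

Plan. `coer`: let `U` be the image under `aeval (x ∘ σ)` (injective by `tb`) of
`restrictTotalDegree (Fin n) ℂ k`, of dimension at least `(k + n).choose n` (independent monomials;
`Finset.card_finsuppAntidiag_nat_eq_choose` or `Sym.card_sym_eq_choose`), inside `Vk x k`
(`aeval_mem_Vk`). Let `B` be the span of the `s i` with `κ i ≤ k`, `k c < a i`. If `0 ≠ g = P (y) ∈ B`,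
let `l > k c` be the least such `a i`; `adm_of_J` for the family `fun _ : Unit => g` with weight `l`
shows `NI (|g| ^ (2 / l)) γ` for `γ > c`; choose `γ` with `γ k < l`; this is `NI (|g| ^ 2) (γ / l)`,
against `not_ni_poly` (`ev_aeval`). So `U ⊓ B = ⊥`, and `finrank U + finrank B ≤ finrank (Vk x k)`
(`Submodule.finrank_sup_add_finrank_inf_eq`), `FlagBasis.card`. `exists_mu0`: `C` from
`finrank_Vk_le`, `C₁` from `Zf_upper`, `C₂` from `Zf_lower`; choose `μ₀ ≤ μ₁` with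
`C₁ + ε log μ₀ < -C₂ + ε log μ₁`. If `μ = μ₁`, compare with `exists_dat0` at `μ₀`, `c = 0`
(`ni_zero`). So `μ < μ₁`; use `exp_le_of_min`. Auxiliary names start with `coer_`. -/

open MeasureTheory Set Filter Topology
open scoped ContDiff ENNReal ComplexConjugate

noncomputable section

namespace Vale.Agent.P271

variable {n M : ℕ} {A Ω : Type} [CommRing A] [IsDomain A] [Algebra ℂ A] [TopologicalSpace Ω]
  [T2Space Ω] [SecondCountableTopology Ω] [MeasurableSpace Ω] [BorelSpace Ω] (X : Aff n M A Ω)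

theorem Aff.coer_ne {K : ℕ} {A₀ : ℝ} {P : Dat (Vk X.x) K A₀} {z : Ω} {c : ℝ} (h : X.Ok P z c)
    {k : ℕ} {Q : MvPolynomial (Fin n) ℂ} (hQ : Q.totalDegree ≤ k) {S : Set P.ι}
    (hS : ∀ i ∈ S, k * c < P.a i)
    (hg : MvPolynomial.aeval (X.x ∘ X.σ) Q ∈ Submodule.span ℂ (P.s '' S)) :
    MvPolynomial.aeval (X.x ∘ X.σ) Q = 0 := by
  by_contra h0
  obtain ⟨j, hj, hm⟩ := filt_min P.s P.a hg h0
  have h1 := hS j hj
  have h2 := h.1
  have hl : 0 < P.a j := (by positivity : 0 ≤ k * c).trans_lt h1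
  have h3 := X.adm_of_J P.a0 (s := fun _ : Unit => MvPolynomial.aeval (X.x ∘ X.σ) Q)
    (a := fun _ => P.a j) h2 h.2 (fun _ _ => ⟨1, by simp, by
      rw [one_mul]
      exact mem_Jw_of_span _ _ hm⟩) ((P.a j + c) / (k + 1))
      ((lt_div_iff₀ (by positivity)).2 (by linarith))
  refine EtDom.not_ni_poly (D := X.toEtDom) (γ := (P.a j + c) / (k + 1) / P.a j) (by positivity) ?_
    (fun e => h0 (by rw [e, map_zero])) hQ z fun N hN => ?_
  · rw [div_mul_eq_mul_div, div_lt_one hl, div_mul_eq_mul_div, div_lt_iff₀ (by positivity)]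
    linarith
  · refine (lintegral_congr fun w => ?_).trans (h3 N hN)
    simp only [Aff.EE, wE, Aff.fam, hl, if_true, X.ev_aeval, Finset.univ_unique,
      Finset.sum_singleton]
    rw [div_eq_mul_inv 2, Real.rpow_mul (norm_nonneg _), Real.rpow_two,
      ← ENNReal.ofReal_rpow_of_nonneg (sq_nonneg _) (inv_pos.2 hl).le, ← ENNReal.rpow_mul,
      mul_neg, ← div_eq_inv_mul]

theorem coer_sum {k : ℕ} {d : Fin (n + 1) →₀ ℕ} (hd : d ∈ Finset.univ.finsuppAntidiag k) :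
    d 0 + ∑ i, d.tail i = k := by
  rw [← (Finset.mem_finsuppAntidiag.1 hd).1, Fin.sum_univ_succ]
  rfl

theorem Aff.coer {K : ℕ} {A₀ : ℝ} {P : Dat (Vk X.x) K A₀} {z : Ω} {c : ℝ} (h : X.Ok P z c) {k : ℕ}
    (hk : k ≤ K) :
    (k + n).choose n ≤ (Finset.univ.filter fun i => P.κ i ≤ k ∧ P.a i ≤ k * c).card := by
  let T : Finset (Fin (n + 1) →₀ ℕ) := Finset.univ.finsuppAntidiag k
  let B := Finset.univ.filter fun i => P.κ i ≤ k ∧ ¬P.a i ≤ k * c
  have hd : ∀ d : T, (MvPolynomial.monomial d.1.tail (1 : ℂ)).totalDegree ≤ k := fun d => by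
    refine (MvPolynomial.totalDegree_monomial_le _ _).trans ?_
    rw [Finsupp.sum_fintype _ _ fun _ => rfl]
    exact (Nat.le_add_left _ _).trans (coer_sum d.2).le
  have l1 : LinearIndependent ℂ fun d : T =>
      MvPolynomial.aeval (X.x ∘ X.σ) (MvPolynomial.monomial d.1.tail (1 : ℂ)) := by
    refine ((MvPolynomial.basisMonomials (Fin n) ℂ).linearIndependent.comp (fun d : T => d.1.tail)
      fun d d' e => Subtype.ext ?_).map' (MvPolynomial.aeval (X.x ∘ X.σ)).toLinearMap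
      (LinearMap.ker_eq_bot.2 X.tb.1)
    have e' : d.1.tail = d'.1.tail := e
    have h1 := coer_sum d.2
    rw [e', ← coer_sum d'.2] at h1
    rw [← Finsupp.cons_tail d.1, ← Finsupp.cons_tail d'.1, e', add_right_cancel h1]
  have l2 := l1.sum_type (P.fb.li.comp (Subtype.val : B → P.ι) Subtype.val_injective)
    (Submodule.disjoint_def.2 fun g h1 h2 => by
      obtain ⟨Q, hQ, rfl⟩ := (Submodule.span_le (p := (MvPolynomial.restrictTotalDegree (Fin n) ℂ
        k).map (MvPolynomial.aeval (X.x ∘ X.σ)).toLinearMap)).2 (range_subset_iff.2 fun d =>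
        ⟨_, (MvPolynomial.mem_restrictTotalDegree _ _ _).2 (hd d), rfl⟩) h1
      rw [range_comp, Subtype.range_coe] at h2
      exact X.coer_ne h ((MvPolynomial.mem_restrictTotalDegree _ _ _).1 hQ)
        (fun i hi => not_le.1 (Finset.mem_filter.1 hi).2.2) h2)
  have h3 := (finrank_span_eq_card l2).ge.trans (Submodule.finrank_mono (t := Vk X.x k)
    (Submodule.span_le.2 (range_subset_iff.2 fun i => by
      rcases i with d | i
      · exact aeval_mem_Vk _ _ (hd d)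
      · exact Vk_mono _ (Finset.mem_filter.1 i.2).2.1 (P.fb.mem i))))
  rw [← P.fb.card (Vk_mono _) hk, Fintype.card_sum, Fintype.card_coe, Fintype.card_coe,
    Finset.card_finsuppAntidiag_nat_eq_choose, Finset.card_fin,
    ← Finset.card_filter_add_card_filter_not (s := Finset.univ.filter fun i => P.κ i ≤ k)
      fun i => P.a i ≤ k * c, Finset.filter_filter,
    Finset.filter_filter, show n + 1 + k - 1 = k + n by omega, Nat.choose_symm_add] at h3
  exact le_of_add_le_add_right h3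

theorem Aff.exists_mu0 (hn : 1 ≤ n) {β ε μ₁ : ℝ} (hβ : 0 < β) (hε : 0 < ε) (h0 : 0 < μ₁)
    (h1 : μ₁ ≤ 1) (x₀ : Ω) :
    ∃ μ₀ : ℝ, 0 < μ₀ ∧ μ₀ ≤ μ₁ ∧ ∀ (K : ℕ) (A₀ : ℝ), 1 / μ₀ ≤ K → 0 ≤ A₀ →
      ∀ (P : Dat (Vk X.x) K A₀) (μ c : ℝ), X.IsMin x₀ β (n + ε) μ₀ μ₁ P μ c →
        ∑ i, μ * P.κ i * Real.exp (-(μ * P.κ i) - β * μ * P.a i) ≤
          (n + ε) * Zf P.κ P.a μ (β * μ) := by
  obtain ⟨C, hC⟩ := finrank_Vk_le X.gen X.tb
  obtain ⟨C₁, hC₁⟩ := Zf_upper n C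
  obtain ⟨C₂, hC₂⟩ := Zf_lower hn hβ
  obtain ⟨μ₀, p0, p1, e⟩ : ∃ μ₀ : ℝ, 0 < μ₀ ∧ μ₀ ≤ μ₁ ∧
      ε * Real.log μ₀ = ε * Real.log μ₁ - (|C₁ + C₂| + 1) := by
    refine ⟨μ₁ * Real.exp (-((|C₁ + C₂| + 1) / ε)), by positivity, mul_le_of_le_one_right h0.le
      (Real.exp_le_one_iff.2 (neg_nonpos.2 (by positivity))), ?_⟩
    rw [Real.log_mul h0.ne' (Real.exp_pos _).ne', Real.log_exp]
    field_simp
    ring
  refine ⟨μ₀, p0, p1, fun K A₀ hK hA P μ c ⟨hμ, ok, hm⟩ => ?_⟩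
  have := P.nonempty
  refine exp_le_of_min P.κ P.a0 hβ.le (p0.trans_le hμ.1) (hμ.2.lt_of_ne ?_) fun μ' h' =>
    ?_
  · rintro rfl
    obtain ⟨P₀, h₀⟩ := exists_dat0 (K := K) (Vk_mono X.x) hA
    have := P₀.nonempty
    have k1 := hm μ₀ ⟨le_rfl, p1⟩ 0 P₀ ⟨le_rfl, fun γ hγ => EtDom.ni_zero hγ
      (Eventually.of_forall fun w => by simp [Aff.EE, wE, h₀])⟩
    have k2 := hC₁ K P₀.ι P₀.κ P₀.fb.le (fun k hk => (P₀.fb.card (Vk_mono _) hk).trans_le (hC k))
      μ₀ (β * μ₀) p0 (p1.trans h1)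
    have k3 := hC₂ K P.ι P.κ P.a c μ ok.1 h0 ((one_div_le_one_div_of_le p0 p1).trans hK)
      fun k hk => X.coer ok hk
    rw [Dat.G, Dat.G, funext h₀] at k1
    linarith [le_abs_self (C₁ + C₂)]
  · have := hm μ' ⟨hμ.1.trans h'.1, h'.2⟩ c P ok
    rw [Dat.G, Dat.G] at this
    linarith

end Vale.Agent.P271
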