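import Vale.Agent.P271.M.Nad
import Vale.Agent.P271.G.Vol

/-! P271 M/Dich: either the point is isolated in the zero set of the multiplier ideal, or there is a
positive dimensional component through it.

Plan. `min_prime`: the minimal primes over `𝔞` are finitely many
(`Ideal.finite_minimalPrimes_of_isNoetherianRing`), their intersection is the radical
(`Ideal.sInf_minimalPrimes`), a power of the radical lies in `𝔞`
(`Ideal.exists_radical_pow_le_of_fg`); take `b'` a product of elements of the other minimal primes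
not in `𝔭`, `b = b' ^ N`. `dich`: `c'` from `mi_stab`, `𝔞 = mi c'`. If some minimal prime `𝔭` of `𝔞` has
`𝔭 ≤ ker (ev x)`, `𝔭 ≠ ker (ev x)`: take generators `g : Fin r → A` of `𝔭`, `γ > 0` with `c + N γ < c'`,
the family `Sum.elim (fun i : {i // 0 < a i} => s i) g` (`pow_mem_mi` gives `s i ∈ 𝔭`). For `z` near
`x` (`mi_loc`) with `𝔭 ≤ ker (ev z)`: `Adm (EE s a) z c` (if `z = x` given; otherwise by `nad` at exponents
in `(c, c']` and `NI.mono`); `b g ^ N ∈ mi s a z c'` and `|b| ≥ δ` near `z`; `adm_vol`; `wE_elim`,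
`Finset.sum_subtype`. Otherwise each minimal prime is `ker (ev x)` or contains an element not
vanishing at, hence near, `x`; for `z ≠ x` near `x`, `𝔞 ≤ ker (ev z)` would give a minimal prime below
`ker (ev z)` (`Ideal.exists_minimalPrimes_le`), so `ker (ev x) ≤ ker (ev z)`, so `ev x = ev z`
(apply to `r - algebraMap (ev x r)`), against `ev_inj`; use `mi_loc`, `not_ni_of_mi`.
Auxiliary names start with `dich_`. -/

open MeasureTheory Set Filter Topology
open scoped ContDiff ENNReal ComplexConjugate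

noncomputable section

namespace Vale.Agent.P271

theorem min_prime {A : Type} [CommRing A] [IsNoetherianRing A] {𝔞 𝔭 : Ideal A}
    (h : 𝔭 ∈ 𝔞.minimalPrimes) : ∃ b ∉ 𝔭, ∃ N : ℕ, ∀ g ∈ 𝔭, b * g ^ N ∈ 𝔞 := by
  classical
  have hfin := Ideal.finite_minimalPrimes_of_isNoetherianRing A 𝔞
  have hp : 𝔭.IsPrime := h.1.1
  have ex : ∀ 𝔮 ∈ 𝔞.minimalPrimes, ∃ b ∉ 𝔭, 𝔮 ≠ 𝔭 → b ∈ 𝔮 := fun 𝔮 h𝔮 => by
    by_cases e : 𝔮 = 𝔭
    · exact ⟨1, (Ideal.ne_top_iff_one _).1 hp.ne_top, fun h' => absurd e h'⟩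
    · obtain ⟨b, hb, hb'⟩ := SetLike.not_le_iff_exists.1 fun hle : 𝔮 ≤ 𝔭 =>
        e (le_antisymm hle (h.2 h𝔮.1 hle))
      exact ⟨b, hb', fun _ => hb⟩
  choose! f hf hf' using ex
  obtain ⟨N, hN⟩ := Ideal.exists_radical_pow_le_of_fg 𝔞 (IsNoetherian.noetherian _)
  refine ⟨(∏ 𝔮 ∈ hfin.toFinset, f 𝔮) ^ N, fun hb => ?_, N, fun g hg => ?_⟩
  · obtain ⟨𝔮, h𝔮, h'⟩ := Ideal.IsPrime.prod_mem_iff.1 (hp.mem_of_pow_mem _ hb)
    exact hf 𝔮 (hfin.mem_toFinset.1 h𝔮) h'
  · rw [← mul_pow]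
    refine hN (Ideal.pow_mem_pow ?_ N)
    rw [← Ideal.sInf_minimalPrimes, Ideal.mem_sInf]
    intro 𝔮 h𝔮
    by_cases e : 𝔮 = 𝔭
    · exact e ▸ Ideal.mul_mem_left _ _ hg
    · exact Ideal.mul_mem_right _ _ (Ideal.prod_mem _ (hfin.mem_toFinset.2 h𝔮) (hf' 𝔮 h𝔮 e))

variable {n M : ℕ} {A Ω : Type} [CommRing A] [IsDomain A] [Algebra ℂ A] [TopologicalSpace Ω]
  [T2Space Ω] [SecondCountableTopology Ω] [MeasurableSpace Ω] [BorelSpace Ω] (X : Aff n M A Ω)

theorem Aff.dich {ι : Type} [Fintype ι] (s : ι → A) (a : ι → ℝ) {x : Ω} {c : ℝ} (hc : 0 ≤ c)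
    (adm : X.toEtDom.Adm (X.EE s a) x c) :
    (∃ c' > c, ∀ᶠ z in 𝓝[≠] x, ¬X.toEtDom.NI (X.EE s a) z c') ∨
    ∃ 𝔭 : Ideal A, 𝔭.IsPrime ∧ 𝔭 ≤ RingHom.ker (X.ev x) ∧ 𝔭 ≠ RingHom.ker (X.ev x) ∧
      ∃ (ι' : Type) (_ : Fintype ι') (G : ι' → A) (w : ι' → ℝ), (∀ i, 0 < w i) ∧
        Ideal.span (range G) = 𝔭 ∧ (∀ i, 0 < a i → s i ∈ Jw G w (a i)) ∧ ∃ b ∉ 𝔭,
          ∀ᶠ z in 𝓝 x, 𝔭 ≤ RingHom.ker (X.ev z) → X.ev z b ≠ 0 →
            X.toEtDom.Adm (X.EE G w) z c := by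
  classical
  have := X.noeth
  have := X.toEtDom.locallyCompact
  obtain ⟨c', hc', hst⟩ := X.mi_stab s a x hc
  by_cases hex : ∃ 𝔭 ∈ (X.mi s a x c').minimalPrimes,
      𝔭 ≤ RingHom.ker (X.ev x) ∧ 𝔭 ≠ RingHom.ker (X.ev x)
  · obtain ⟨𝔭, hm, h1, h2⟩ := hex
    have hp : 𝔭.IsPrime := hm.1.1
    obtain ⟨b, hb, N, hN⟩ := min_prime hm
    obtain ⟨r, g, hg⟩ := Submodule.fg_iff_exists_fin_generating_family.1
      (IsNoetherian.noetherian 𝔭)
    obtain ⟨γ, hγ, hγc⟩ : ∃ γ : ℝ, 0 < γ ∧ c + N * γ < c' := by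
      refine ⟨(c' - c) / (N + 1), div_pos (by linarith) (by positivity), ?_⟩
      have h3 : (N : ℝ) * ((c' - c) / (N + 1)) = (c' - c) - (c' - c) / (N + 1) := by
        field_simp
        ring
      have h4 : 0 < (c' - c) / (N + 1 : ℝ) := div_pos (by linarith) (by positivity)
      linarith
    have hgp : ∀ l, g l ∈ 𝔭 := fun l => hg ▸ Submodule.subset_span ⟨l, rfl⟩
    have hsp : ∀ i, 0 < a i → s i ∈ 𝔭 := fun i hi => by
      obtain ⟨k, hk⟩ := X.pow_mem_mi s a x (hc.trans hc'.le) hi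
      exact hp.mem_of_pow_mem _ (hm.1.2 hk)
    refine Or.inr ⟨𝔭, hp, h1, h2, {i // 0 < a i} ⊕ Fin r, inferInstance,
      Sum.elim (fun i => s i) g, Sum.elim (fun i => a i) fun _ => γ, ?_, ?_, fun i hi => ?_, b, hb, ?_⟩
    · rintro (i | i)
      · exact i.2
      · exact hγ
    · refine le_antisymm (Ideal.span_le.2 ?_) ?_
      · rintro _ ⟨i | i, rfl⟩
        · exact hsp i i.2
        · exact hgp i
      · rw [← hg]
        exact Submodule.span_mono fun _ ⟨l, hl⟩ => ⟨Sum.inr l, hl⟩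
    · exact mem_Jw_self (Sum.elim (fun i : {i // 0 < a i} => s i) g)
        (Sum.elim (fun i => a i) fun _ => γ) (Sum.inl ⟨i, hi⟩)
    filter_upwards [X.mi_loc s a x c'] with z hz hpz hbz
    have a1 : X.toEtDom.Adm (X.EE s a) z c := by
      by_cases hzx : z = x
      · exact hzx ▸ adm
      intro γ' hγ'
      have h3 : c < min γ' c' := lt_min hγ' hc'
      have h4 : X.toEtDom.NI (X.EE s a) z (min γ' c') := by
        by_contra h4
        obtain ⟨g', hg', h0⟩ := X.nad s a (hc.trans_lt h3) hzx h4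
        rw [hst _ h3 (min_le_right _ _)] at hg'
        exact h0 (hpz (hm.1.2 hg'))
      exact h4.mono (hc.trans h3.le) (min_le_left _ _)
        ((X.continuous_EE s a).continuousAt.eventually (ge_mem_nhds (lt_add_one _)))
    have a2 := EtDom.adm_vol (N := N) (Eventually.of_forall fun w =>
      (X.continuous_EE s a).continuousAt) (fun w => wE_nonneg _ _ w) hc a1 (X.continuous_fam g) hγ hγc
      fun l => by
        obtain ⟨U, hU, hI⟩ := (X.mem_mi s a z).1 (hz (hN _ (hgp l)))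
        have hb0 : 0 < ‖X.ev z b‖ / 2 := half_pos (norm_pos_iff.2 hbz)
        have hV : IsOpen {w | ‖X.ev z b‖ / 2 < ‖X.ev w b‖} :=
          isOpen_lt continuous_const (X.continuous_ev b).norm
        refine ⟨U ∩ {w | ‖X.ev z b‖ / 2 < ‖X.ev w b‖},
          inter_mem hU (hV.mem_nhds (half_lt_self (norm_pos_iff.2 hbz))), ne_top_of_le_ne_top
          (ENNReal.mul_ne_top (ENNReal.ofReal_ne_top (r := ((‖X.ev z b‖ / 2) ^ 2)⁻¹)) hI) ?_⟩
        rw [← lintegral_const_mul' _ _ ENNReal.ofReal_ne_top, inter_comm,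
          ← Measure.restrict_restrict hV.measurableSet]
        refine le_trans (setLIntegral_mono' hV.measurableSet fun w hw => ?_)
          (setLIntegral_le_lintegral _ _)
        rw [← mul_assoc, ← ENNReal.ofReal_mul (by positivity)]
        refine mul_le_mul_left (ENNReal.ofReal_le_ofReal ?_) _
        rw [le_inv_mul_iff₀ (by positivity), map_mul, map_pow, norm_mul, mul_pow]
        exact mul_le_mul_of_nonneg_right (pow_le_pow_left₀ hb0.le (le_of_lt hw) 2) (sq_nonneg _)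
    have e : X.EE (Sum.elim (fun i : {i // 0 < a i} => s i) g) (Sum.elim (fun i => a i) fun _ => γ) =
        fun w => X.EE s a w + wE (X.fam g) (fun _ => γ) w := by
      funext w
      have e1 : X.fam (Sum.elim (fun i : {i // 0 < a i} => s i) g) =
          Sum.elim (X.fam fun i : {i // 0 < a i} => s i) (X.fam g) := by
        funext i
        cases i <;> rfl
      rw [Aff.EE, e1, wE_elim, Aff.EE]
      congr 1
      rw [wE, wE, ← Finset.sum_filter, ← Finset.sum_filter,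
        Finset.filter_true_of_mem fun i : {i // 0 < a i} => fun _ => i.2]
      exact (Finset.sum_subtype (Finset.univ.filter fun i => 0 < a i) (p := fun i => 0 < a i)
        (by simp) fun i => ‖X.fam s i w‖ ^ (2 / a i)).symm
    rw [e]
    exact a2
  · refine Or.inl ⟨c', hc', ?_⟩
    have hfin := Ideal.finite_minimalPrimes_of_isNoetherianRing A (X.mi s a x c')
    have e1 : ∀ᶠ z in 𝓝 x, ∀ 𝔭 ∈ (X.mi s a x c').minimalPrimes, 𝔭 ≤ RingHom.ker (X.ev z) →
        RingHom.ker (X.ev x) ≤ RingHom.ker (X.ev z) := by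
      refine (hfin.eventually_all).2 fun 𝔭 h𝔭 => ?_
      by_cases h1 : 𝔭 ≤ RingHom.ker (X.ev x)
      · have h2 : 𝔭 = RingHom.ker (X.ev x) := by_contra fun h2 => hex ⟨𝔭, h𝔭, h1, h2⟩
        exact Eventually.of_forall fun z hz => h2 ▸ hz
      · obtain ⟨b, hb, hb'⟩ := SetLike.not_le_iff_exists.1 h1
        exact ((X.continuous_ev b).continuousAt.eventually_ne hb').mono fun z hz h =>
          absurd (h hb) hz
    rw [eventually_nhdsWithin_iff]
    filter_upwards [e1, X.mi_loc s a x c'] with z h1 h2 hzx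
    have h3 : ¬X.mi s a x c' ≤ RingHom.ker (X.ev z) := fun h3 => by
      have := RingHom.ker_isPrime (X.ev z)
      obtain ⟨𝔭, h𝔭, h4⟩ := Ideal.exists_minimalPrimes_le h3
      refine hzx (X.ev_inj (AlgHom.ext fun r => ?_))
      have h5 : r - algebraMap ℂ A (X.ev x r) ∈ RingHom.ker (X.ev x) := by simp [RingHom.mem_ker]
      simpa [RingHom.mem_ker, sub_eq_zero] using h1 𝔭 h𝔭 h4 h5
    obtain ⟨g, hg, hg'⟩ := SetLike.not_le_iff_exists.1 h3
    exact X.not_ni_of_mi s a z (h2 hg) hg'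

end Vale.Agent.P271
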