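import Vale.Agent.P271.M.JB
import Vale.Agent.P271.C.Bnd

/-! P271 M/Shift: lowering the weights of a minimiser.

Plan. With `b = β μ`, `∑ b κ e ≤ β r Z < t Z` for `t = (β r + t₁) / 2`; take `M₀` from `Zf_shift`. Put
`γ = c - t₁ M`, `P'` the data with weights `max (a - M κ) 0`; `EE s P'.a = EE s (a - M κ)` and
`Zf κ P'.a ≤ Zf κ (a - M κ)` (`Zf_anti`). If `γ < 0` use a compact neighbourhood (finite measure). If
`0 ≤ γ`, `Ok P' x₀ γ` contradicts minimality, so for some `γ' > γ` the integral of `EE ^ (-γ')` over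
a neighbourhood is finite; pass to its interior and use `meas_le_of_lint`.
Auxiliary names start with `shift_`. -/

open MeasureTheory Set Filter Topology
open scoped ContDiff ENNReal ComplexConjugate

noncomputable section

namespace Vale.Agent.P271

variable {n M : ℕ} {A Ω : Type} [CommRing A] [IsDomain A] [Algebra ℂ A] [TopologicalSpace Ω]
  [T2Space Ω] [SecondCountableTopology Ω] [MeasurableSpace Ω] [BorelSpace Ω] (X : Aff n M A Ω)

theorem Aff.vol_shift {K : ℕ} {A₀ β r μ₀ μ₁ μ c t₁ : ℝ} {P : Dat (Vk X.x) K A₀} {x₀ : Ω}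
    (hβ : 0 < β) (h₀ : 0 < μ₀) (h : X.IsMin x₀ β r μ₀ μ₁ P μ c)
    (hE : ∑ i, μ * P.κ i * Real.exp (-(μ * P.κ i) - β * μ * P.a i) ≤ r * Zf P.κ P.a μ (β * μ))
    (ht : β * r < t₁) :
    ∃ M₀ > (0 : ℝ), ∀ m ∈ Ioc 0 M₀, ∃ N ∈ 𝓝 x₀, ∃ C : ℝ, ∀ T, 0 ≤ T →
      X.ν (N ∩ {w | X.EE P.s (fun i => P.a i - m * P.κ i) w ≤ Real.exp (-T)}) ≤
        ENNReal.ofReal (C * Real.exp (-((c - t₁ * m) * T))) := by
  have hμ : 0 < μ := h₀.trans_le h.1.1
  have := P.nonempty
  have hZ := Zf_pos P.κ P.a μ (β * μ)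
  obtain ⟨M₀, hM₀, hM⟩ := Zf_shift P.κ P.a (μ := μ) (b := β * μ) (t := (β * r + t₁) / 2) (by
    have h1 := mul_le_mul_of_nonneg_left hE hβ.le
    rw [Finset.mul_sum] at h1
    simp only [← mul_assoc] at h1
    refine h1.trans_lt (mul_lt_mul_of_pos_right (by linarith) hZ))
  refine ⟨M₀, hM₀, fun m hm => ?_⟩
  rcases lt_or_ge (c - t₁ * m) 0 with hγ | hγ
  · have := X.toEtDom.locallyCompact
    have := X.toEtDom.finiteOnCompacts
    obtain ⟨N, hN, hN'⟩ := exists_compact_mem_nhds x₀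
    refine ⟨N, hN', (X.ν N).toReal, fun T hT => (measure_mono inter_subset_left).trans ?_⟩
    refine (ENNReal.ofReal_toReal hN.measure_lt_top.ne).symm.trans_le (ENNReal.ofReal_le_ofReal
      (le_mul_of_one_le_right ENNReal.toReal_nonneg (Real.one_le_exp ?_)))
    nlinarith
  · let P' : Dat (Vk X.x) K A₀ :=
      { P with
        a := fun i => max (P.a i - m * P.κ i) 0
        a0 := fun i => le_max_right _ _
        a1 := fun i => max_le (by
          have h1 : 0 ≤ m * P.κ i := mul_nonneg hm.1.le (Nat.cast_nonneg _)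
          linarith [P.a1 i]) ((P.a0 i).trans (P.a1 i)) }
    have e : X.EE P'.s P'.a = X.EE P.s fun i => P.a i - m * P.κ i := by
      funext w
      refine Finset.sum_congr rfl fun i _ => ?_
      by_cases hi : 0 < P.a i - m * P.κ i
      · simp only [P', max_eq_left hi.le]
      · simp only [P', max_eq_right (not_lt.1 hi), lt_irrefl, if_false, if_neg hi]
    have h1 : ¬X.toEtDom.Adm (X.EE P'.s P'.a) x₀ (c - t₁ * m) := fun hA => by
      have h2 := h.2.2 μ h.1 _ P' ⟨hγ, hA⟩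
      have h3 : Real.log (Zf P'.κ P'.a μ (β * μ)) ≤
          Real.log (Zf P.κ (fun i => P.a i - m * P.κ i) μ (β * μ)) :=
        Real.log_le_log (Zf_pos P.κ _ _ _)
          (Zf_anti P.κ (fun i => le_max_left _ _) μ (mul_pos hβ hμ).le)
      have h4 := hM m hm
      have h5 := mul_lt_mul_of_pos_right ht hm.1
      simp only [Dat.G] at h2
      linarith
    rw [e] at h1
    simp only [EtDom.Adm, EtDom.NI, not_forall] at h1
    obtain ⟨γ, hγ', N, hN, hI⟩ := h1
    have hI' := ne_top_of_le_ne_top hI (lintegral_mono_set (interior_subset (s := N)))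
    obtain ⟨C, hC, hC'⟩ : ∃ C : ℝ, 0 ≤ C ∧ ENNReal.ofReal C = _ :=
      ⟨_, ENNReal.toReal_nonneg, ENNReal.ofReal_toReal hI'⟩
    refine ⟨interior N, interior_mem_nhds.2 hN, C, fun T hT =>
      (EtDom.meas_le_of_lint isOpen_interior (X.continuous_EE _ _).continuousOn
        (hγ.trans hγ'.le) T).trans ?_⟩
    rw [← hC', ← ENNReal.ofReal_mul (Real.exp_pos _).le, mul_comm]
    refine ENNReal.ofReal_le_ofReal (mul_le_mul_of_nonneg_left (Real.exp_le_exp.2 ?_) hC)
    nlinarith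

end Vale.Agent.P271
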