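import Vale.Agent.P271.M.CaseB
import Vale.Agent.P271.M.Dich
import Vale.Agent.P271.M.Coer
import Vale.Agent.P271.M.Shift
import Vale.Agent.P271.C.Par

/-! P271 M/Core: the affine form of the theorem. -/

open MeasureTheory Set Filter Topology
open scoped ContDiff ENNReal ComplexConjugate

noncomputable section

namespace Vale.Agent.P271

variable {n M : ℕ} {A Ω : Type} [CommRing A] [IsDomain A] [Algebra ℂ A] [TopologicalSpace Ω]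
  [T2Space Ω] [SecondCountableTopology Ω] [MeasurableSpace Ω] [BorelSpace Ω] (X : Aff n M A Ω)

theorem Aff.core (hn : 1 ≤ n) {p : ℕ} (hp : 1 ≤ p) (hdeg : DegHyp X.x p) {θ : ℝ}
    (hθ : (n : ℝ) < θ * p) {u : Ω → ℂ} (hu : ∀ z, X.toEtDom.HolAt u z ∧ u z ≠ 0) (x₀ : Ω) :
    ∃ f : Ω → ℂ, (∀ z, X.toEtDom.HolAt f z) ∧ f x₀ ≠ 0 ∧
      ∫⁻ z, ENNReal.ofReal (‖f z‖ ^ 2 * (‖u z‖ ^ 2 / X.nrm z) ^ θ) ∂X.ν ≠ ⊤ := by
  obtain ⟨β, ε, hβ, hε, hε', hθ', hgain⟩ := par1 hn hp hθ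
  obtain ⟨L, μ₁, hL1, h1, h1', hL⟩ := par2 M hp hε hε'
  obtain ⟨μ₀, h0, h01, hE⟩ := X.exists_mu0 hn hβ hε h1 h1' x₀
  obtain ⟨C, hC⟩ := finrank_Vk_le X.gen X.tb
  obtain ⟨K, hLK, hK, herr⟩ := par3 M n C L hL1 hp hε hε' h0
  obtain ⟨A₀, hA, htop⟩ := par4 (C * (K + 1) ^ n) (mul_pos hβ h0) hε
  have hr : (0 : ℝ) ≤ n + ε := by positivity
  obtain ⟨P, μ, c, hmin⟩ := X.exists_min (A₀ := A₀) hβ.le (by linarith) hr h0 h01 K x₀
  rcases X.dich P.s P.a hmin.2.1.1 hmin.2.1.2 with ⟨c', hc', iso⟩ |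
    ⟨𝔭, h𝔭, h1, h2, ι, _, G, w, hw, hG, hP, b, hb, adm⟩
  · obtain ⟨M₀, hM, shift⟩ := X.vol_shift (t₁ := (β * (n + ε) + θ) / 2) hβ h0 hmin
      (hE K A₀ hK (by linarith) P μ c hmin) (by linarith)
    have : 0 ≤ β * (n + ε) := by positivity
    exact X.section hu hmin.2.1 hc' iso (by linarith) (by linarith) hM shift
  · exact (X.caseB hp hdeg hβ hε hε' hr h0 hA hgain hL1 hLK (hC K) hL herr htop hmin h𝔭 h1 h2 hw
      hG hP hb adm).elim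

end Vale.Agent.P271
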