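import Vale.Agent.P271.M.OD
import Vale.Agent.P271.C.Bnd
import Vale.Agent.P271.G.DK

/-! P271 M/Close: limits of admissible data, existence of minimisers.

Plan. `G_lower`: one term of `Zf` is at least `exp (-(μ K) - β μ A₀)`. `close`: fix bases
`e k = Module.finBasis ℂ (Vk x k)`; `toO` gives `v l, a l`, admissible at `z l` by `adm_of_J` (`t = 1`).
The `c l` are bounded (`G_lower`, `g` converges). The tuples `(v l, a l, μ l, c l)` lie in a compact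
subset (a bounded set in a proper space, `tendsto_subseq_of_bounded`; or a product of closed balls and
intervals, `IsCompact.tendsto_subseq`). Along the subsequence `fam (ovec e (v l)) i` converges
uniformly on a compact neighbourhood of `x₀` (the `ev · (e k j)` are bounded there); apply `dk`,
`on_limit`, continuity of `oZ` (`continuous_wk`; the limit is positive because it dominates a `Zf` by
`ofO`, `Zf_pos`), then `ofO` and `adm_of_J`. `exists_min`: the set of values is nonempty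
(`exists_dat0`, `ni_zero`) and bounded below; take a sequence tending to the infimum
(`exists_seq_tendsto_sInf`) and use `close` with constant `z`. Auxiliary names start with
`close_`. -/

open MeasureTheory Set Filter Topology
open scoped ContDiff ENNReal ComplexConjugate

noncomputable section

namespace Vale.Agent.P271

variable {n M : ℕ} {A Ω : Type} [CommRing A] [IsDomain A] [Algebra ℂ A] [TopologicalSpace Ω]
  [T2Space Ω] [SecondCountableTopology Ω] [MeasurableSpace Ω] [BorelSpace Ω] (X : Aff n M A Ω)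

variable {K : ℕ} {A₀ β r μ₀ μ₁ : ℝ}

omit X in
theorem G_lower {x : Fin M → A} (P : Dat (Vk x) K A₀) (hβ : 0 ≤ β) (hA : 0 ≤ A₀) (hr : 0 ≤ r)
    (h₀ : 0 < μ₀) {μ : ℝ} (hμ : μ ∈ Icc μ₀ μ₁) (c : ℝ) :
    c - μ₁ * K - β * μ₁ * A₀ + r * Real.log μ₀ ≤ P.G β r μ c := by
  obtain ⟨i⟩ := P.nonempty
  have hμ0 : 0 < μ := h₀.trans_le hμ.1
  have h1 : Real.exp (-(μ * P.κ i) - β * μ * P.a i) ≤ Zf P.κ P.a μ (β * μ) :=
    Finset.single_le_sum (f := fun i => Real.exp (-(μ * P.κ i) - β * μ * P.a i))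
      (fun _ _ => (Real.exp_pos _).le) (Finset.mem_univ i)
  have h2 := Real.log_le_log (Real.exp_pos _) h1
  rw [Real.log_exp] at h2
  have h3 : μ * P.κ i ≤ μ₁ * K := mul_le_mul hμ.2 (Nat.cast_le.2 (P.fb.le i)) (Nat.cast_nonneg _)
    (hμ0.le.trans hμ.2)
  have h4 : β * μ * P.a i ≤ β * μ₁ * A₀ := mul_le_mul (mul_le_mul_of_nonneg_left hμ.2 hβ) (P.a1 i)
    (P.a0 i) (mul_nonneg hβ (hμ0.le.trans hμ.2))
  have h5 := mul_le_mul_of_nonneg_left (Real.log_le_log h₀ hμ.1) hr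
  unfold Dat.G
  linarith

theorem Aff.close (hβ : 0 ≤ β) (hA : 0 ≤ A₀) (hr : 0 ≤ r) (h₀ : 0 < μ₀) {z : ℕ → Ω} {x₀ : Ω}
    (hz : Tendsto z atTop (𝓝 x₀)) {μ c g : ℕ → ℝ} {g₀ : ℝ} (hμ : ∀ l, μ l ∈ Icc μ₀ μ₁)
    (P : ℕ → Dat (Vk X.x) K A₀) (ok : ∀ l, X.Ok (P l) (z l) (c l))
    (hG : ∀ l, (P l).G β r (μ l) (c l) ≤ g l) (hg : Tendsto g atTop (𝓝 g₀)) :
    ∃ μ' ∈ Icc μ₀ μ₁, ∃ (c' : ℝ) (P' : Dat (Vk X.x) K A₀), X.Ok P' x₀ c' ∧
      P'.G β r μ' c' ≤ g₀ := by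
  classical
  have := X.toEtDom.locallyCompact
  let dk : Fin (K + 1) → ℕ := fun k => Module.finrank ℂ (Vk X.x k)
  let e : ∀ k : Fin (K + 1), Module.Basis (Fin (dk k)) ℂ (Vk X.x k) := fun k => Module.finBasis ℂ _
  choose v a hv ha hZ hJ using fun l => toO (Vk_mono X.x) e (P l)
  have adm : ∀ l, X.toEtDom.Adm (X.EE (ovec e (v l)) (a l)) (z l) (c l) := fun l =>
    X.adm_of_J (P l).a0 (ok l).1 (ok l).2 fun i _ => ⟨1, by simp, by simpa using hJ l i⟩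
  obtain ⟨B, hB⟩ := hg.bddAbove_range
  set C := B + μ₁ * K + β * μ₁ * A₀ - r * Real.log μ₀ with hC
  have hc : ∀ l, c l ∈ Icc 0 C := fun l => ⟨(ok l).1, by
    have h1 := G_lower (P l) hβ hA hr h₀ (hμ l) (c l)
    have h2 : g l ≤ B := hB ⟨l, rfl⟩
    linarith [hG l]⟩
  have hK : IsCompact ((Set.pi univ fun k : Fin (K + 1) => Set.pi univ fun _ : Fin (dk k) =>
      Metric.closedBall (0 : EuclideanSpace ℂ (Fin (dk k))) 1) ×ˢ
      (Set.pi univ fun _ : (Σ k, Fin (dk k)) => Icc (0 : ℝ) A₀) ×ˢ Icc μ₀ μ₁ ×ˢ Icc (0 : ℝ) C) :=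
    (isCompact_univ_pi fun _ => isCompact_univ_pi fun _ => isCompact_closedBall _ _).prod
      ((isCompact_univ_pi fun _ => isCompact_Icc).prod (isCompact_Icc.prod isCompact_Icc))
  obtain ⟨⟨v₀, a₀, μ', c'⟩, ⟨-, m2, m3, m4⟩, ψ, hψ, ht⟩ := hK.tendsto_subseq
    (x := fun l => (v l, a l, μ l, c l)) fun l => ⟨fun k _ j _ =>
      mem_closedBall_zero_iff.2 ((hv l k).1 j).le, fun i _ => ha l i, hμ l, hc l⟩
  have tv : Tendsto (fun l => v (ψ l)) atTop (𝓝 v₀) := (continuous_fst.tendsto _).comp ht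
  have ta : Tendsto (fun l => a (ψ l)) atTop (𝓝 a₀) := (continuous_snd.fst.tendsto _).comp ht
  have tμ : Tendsto (fun l => μ (ψ l)) atTop (𝓝 μ') := (continuous_snd.snd.fst.tendsto _).comp ht
  have tc : Tendsto (fun l => c (ψ l)) atTop (𝓝 c') := (continuous_snd.snd.snd.tendsto _).comp ht
  have hv₀ : ∀ k, Orthonormal ℂ (v₀ k) := fun k =>
    on_limit (fun l => hv (ψ l) k) (tendsto_pi_nhds.1 tv k)
  obtain ⟨N, hNc, hN⟩ := exists_compact_mem_nhds x₀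
  have a₀m : ∀ i, a₀ i ∈ Icc 0 A₀ := fun i => m2 i (mem_univ i)
  have adm₀ : X.toEtDom.Adm (X.EE (ovec e v₀) a₀) x₀ c' := by
    refine EtDom.dk (s := fun l => X.fam (ovec e (v (ψ l)))) (a := fun l => a (ψ l)) hN
      (fun l i w _ => X.hol_fam _ i w) (fun i w _ => X.hol_fam _ i w) (fun i => ?_)
      (tendsto_pi_nhds.1 ta) tc m4.1 (hz.comp hψ.tendsto_atTop) fun l => adm (ψ l)
    obtain ⟨R, hR⟩ := hNc.exists_bound_of_continuousOn
      (f := fun w j => X.ev w (e i.1 j : A))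
      (continuous_pi fun j => X.continuous_ev _).continuousOn
    have t1 : Tendsto (fun l => ∑ j, ‖v₀ i.1 i.2 j - v (ψ l) i.1 i.2 j‖ * R) atTop
        (𝓝 (∑ j, ‖v₀ i.1 i.2 j - v₀ i.1 i.2 j‖ * R)) := tendsto_finsetSum _ fun j _ =>
      ((tendsto_const_nhds.sub (((PiLp.continuous_apply 2 _ j).tendsto _).comp
        (tendsto_pi_nhds.1 (tendsto_pi_nhds.1 tv i.1) i.2))).norm.mul_const R)
    simp only [sub_self, norm_zero, zero_mul, Finset.sum_const_zero] at t1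
    refine Metric.tendstoUniformlyOn_iff.2 fun ε hε => (t1.eventually (gt_mem_nhds hε)).mono
      fun l hl w hw => lt_of_le_of_lt ?_ hl
    simp only [Aff.fam, ovec, map_sum, map_smul, smul_eq_mul, dist_eq_norm, ← Finset.sum_sub_distrib,
      ← sub_mul]
    refine (norm_sum_le _ _).trans (Finset.sum_le_sum fun j _ => ?_)
    rw [norm_mul]
    exact mul_le_mul_of_nonneg_left ((norm_le_pi_norm (fun j => X.ev w (e i.1 j : A)) j).trans
      (hR w hw)) (norm_nonneg _)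
  obtain ⟨P', hZ', hJ'⟩ := ofO (Vk_mono X.x) hA e hv₀ a₀m
  have hμ' : 0 < μ' := h₀.trans_le m3.1
  have := P'.nonempty
  have z0 := Zf_pos P'.κ P'.a μ' (β * μ')
  have z1 := hZ' μ' (β * μ') hμ'.le (mul_nonneg hβ hμ'.le)
  refine ⟨μ', m3, c', P', ⟨m4.1, X.adm_of_J (fun i => (a₀m i).1) m4.1 adm₀
    fun i hi => ⟨1, by simp, by simpa using hJ' i hi⟩⟩, ?_⟩
  have tZ : Tendsto (fun l => oZ (a (ψ l)) (μ (ψ l)) (β * μ (ψ l))) atTop
      (𝓝 (oZ a₀ μ' (β * μ'))) := tendsto_finsetSum _ fun k _ =>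
    (((continuous_wk K k).tendsto _).comp tμ).mul (tendsto_finsetSum _ fun j _ =>
      (Real.continuous_exp.tendsto _).comp ((tμ.const_mul β).mul (tendsto_pi_nhds.1 ta _)).neg)
  have h1 := le_of_tendsto_of_tendsto' ((tc.add (tZ.log (z0.trans_le z1).ne')).add
    ((tμ.log hμ'.ne').const_mul r)) (hg.comp hψ.tendsto_atTop) fun l => by
      have h2 := hG (ψ l)
      rw [Dat.G, ← hZ] at h2
      exact h2
  have h2 := Real.log_le_log z0 z1
  unfold Dat.G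
  linarith

theorem Aff.exists_min (hβ : 0 ≤ β) (hA : 0 ≤ A₀) (hr : 0 ≤ r) (h₀ : 0 < μ₀) (h₁ : μ₀ ≤ μ₁)
    (K : ℕ) (x₀ : Ω) :
    ∃ (P : Dat (Vk X.x) K A₀) (μ c : ℝ), X.IsMin x₀ β r μ₀ μ₁ P μ c := by
  set S := {g | ∃ μ ∈ Icc μ₀ μ₁, ∃ (c : ℝ) (P : Dat (Vk X.x) K A₀), X.Ok P x₀ c ∧ P.G β r μ c = g}
    with hS
  obtain ⟨P₀, hP₀⟩ := exists_dat0 (K := K) (Vk_mono X.x) hA
  have hne : S.Nonempty := ⟨_, μ₀, ⟨le_rfl, h₁⟩, 0, P₀, ⟨le_rfl, fun γ hγ => EtDom.ni_zero hγ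
    (Eventually.of_forall fun w => by simp [Aff.EE, wE, hP₀])⟩, rfl⟩
  have hbd : BddBelow S := ⟨0 - μ₁ * K - β * μ₁ * A₀ + r * Real.log μ₀, by
    rintro _ ⟨μ, hμ, c, P, ok, rfl⟩
    linarith [G_lower P hβ hA hr h₀ hμ c, ok.1]⟩
  obtain ⟨g, -, hg, hgS⟩ := exists_seq_tendsto_sInf hne hbd
  choose μ hμ c P ok hG using hgS
  obtain ⟨μ', hμ', c', P', ok', hle⟩ := X.close hβ hA hr h₀ (z := fun _ => x₀) tendsto_const_nhds
    hμ P ok (fun l => (hG l).le) hg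
  exact ⟨P', μ', c', hμ', ok', fun μ'' h1 c'' P'' h2 =>
    hle.trans (csInf_le hbd ⟨μ'', h1, c'', P'', h2, rfl⟩)⟩

end Vale.Agent.P271
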