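import Vale.Agent.P271.A.Norm
import Vale.Agent.P271.A.Dense

/-! P271 M/TB: coordinates and general points on a subvariety.

Plan. `exists_tb`: `A ⧸ 𝔭` is generated by the images of the `x i`, so some subset of the range is a
transcendence basis (`exists_isTranscendenceBasis_subset` or
`Algebra.IsAlgebraic.exists_isTranscendenceBasis_subset`, `exists_isTranscendenceBasis_between`);
it is finite of card `d ≤ M`; enumerate it and choose preimages. If `d = 0` then `A ⧸ 𝔭` is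
algebraic over `ℂ`, so each element is a constant (`IsAlgClosed.algebraMap_bijective_of_isIntegral`) and
`ker φ ≤ 𝔭`. `exists_pts`: `dense_pts` for `A ⧸ 𝔭`, `Ideal.Quotient.liftₐ` of `ev x`, and the class of
`b * h` (`h ∉ 𝔭` by `ev_h`); `surj`, `tendsto_of_ev`. Auxiliary names start with `tb_`. -/

open MeasureTheory Set Filter Topology
open scoped ContDiff ENNReal ComplexConjugate

noncomputable section

namespace Vale.Agent.P271

theorem tb_gen {A B : Type} [CommRing A] [Algebra ℂ A] [CommRing B] [Algebra ℂ B] {M : ℕ}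
    {x : Fin M → A} (gen : Algebra.adjoin ℂ (range x) = ⊤) (f : A →ₐ[ℂ] B)
    (hf : Function.Surjective f) : Algebra.adjoin ℂ (range fun i => f (x i)) = ⊤ := by
  have e : (range fun i => f (x i)) = f '' range x := range_comp f x
  rw [e, ← AlgHom.map_adjoin, gen, Algebra.map_top, AlgHom.range_eq_top]
  exact hf

theorem tb_sub {B : Type} [CommRing B] [IsDomain B] [Algebra ℂ B] {M : ℕ} {y : Fin M → B}
    (gen : Algebra.adjoin ℂ (range y) = ⊤) :
    ∃ (d : ℕ) (τ : Fin d → Fin M), d ≤ M ∧ IsTranscendenceBasis ℂ fun j => y (τ j) := by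
  have : Algebra.IsAlgebraic (Algebra.adjoin ℂ (range y)) B := ⟨fun b =>
    isAlgebraic_algebraMap (⟨b, gen ▸ Algebra.mem_top⟩ : Algebra.adjoin ℂ (range y))⟩
  obtain ⟨t, ht, h⟩ := exists_isTranscendenceBasis_subset (R := ℂ) (range y)
  choose σ hσ using fun b : t => ht b.2
  have hi : Function.Injective σ := fun a b e => Subtype.ext (by rw [← hσ, ← hσ, e])
  have : Finite t := Finite.of_injective σ hi
  refine ⟨Nat.card t, σ ∘ (Finite.equivFin t).symm, ?_, ?_⟩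
  · simpa using Nat.card_le_card_of_injective σ hi
  · exact (isTranscendenceBasis_equiv' (Finite.equivFin t).symm (funext fun j => (hσ _).symm)).2 h

theorem exists_tb {A : Type} [CommRing A] [Algebra ℂ A] {M : ℕ} {x : Fin M → A}
    (gen : Algebra.adjoin ℂ (range x) = ⊤) {𝔭 : Ideal A} (hp : 𝔭.IsPrime) {φ : A →ₐ[ℂ] ℂ}
    (h1 : 𝔭 ≤ RingHom.ker φ) (h2 : 𝔭 ≠ RingHom.ker φ) :
    ∃ (d : ℕ) (τ : Fin d → Fin M), 1 ≤ d ∧ d ≤ M ∧
      IsTranscendenceBasis ℂ fun j => Ideal.Quotient.mk 𝔭 (x (τ j)) := by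
  obtain ⟨d, τ, hd, h⟩ := tb_sub (tb_gen gen (Ideal.Quotient.mkₐ ℂ 𝔭)
    (Ideal.Quotient.mkₐ_surjective ℂ 𝔭))
  refine ⟨d, τ, Nat.one_le_iff_ne_zero.2 fun h0 => h2 (le_antisymm h1 fun a ha => ?_), hd, h⟩
  subst h0
  have := h.isEmpty_iff_isAlgebraic.1 inferInstance
  obtain ⟨c, hc⟩ := (IsAlgClosed.algebraMap_bijective_of_isIntegral (k := ℂ) (K := A ⧸ 𝔭)).2
    (Ideal.Quotient.mk 𝔭 a)
  have h3 : algebraMap ℂ A c - a ∈ 𝔭 := Ideal.Quotient.eq.1 hc
  have h4 := h1 h3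
  rw [RingHom.mem_ker, map_sub, AlgHom.commutes, RingHom.mem_ker.1 ha, sub_zero] at h4
  have h5 : c = 0 := h4
  rw [h5, map_zero, zero_sub] at h3
  exact 𝔭.neg_mem_iff.1 h3

variable {n M : ℕ} {A Ω : Type} [CommRing A] [IsDomain A] [Algebra ℂ A] [TopologicalSpace Ω]
  [T2Space Ω] [SecondCountableTopology Ω] [MeasurableSpace Ω] [BorelSpace Ω] (X : Aff n M A Ω)

theorem Aff.exists_pts {𝔭 : Ideal A} (hp : 𝔭.IsPrime) {x : Ω} (hx : 𝔭 ≤ RingHom.ker (X.ev x))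
    {b : A} (hb : b ∉ 𝔭) :
    ∃ z : ℕ → Ω, Tendsto z atTop (𝓝 x) ∧
      ∀ l, 𝔭 ≤ RingHom.ker (X.ev (z l)) ∧ X.ev (z l) b ≠ 0 := by
  have : Algebra.FiniteType ℂ (A ⧸ 𝔭) :=
    ⟨⟨(finite_range _).toFinset, by
      rw [Finite.coe_toFinset]
      exact tb_gen X.gen (Ideal.Quotient.mkₐ ℂ 𝔭) (Ideal.Quotient.mkₐ_surjective ℂ 𝔭)⟩⟩
  have hb' : Ideal.Quotient.mk 𝔭 (b * X.h) ≠ 0 := fun e =>
    (hp.mem_or_mem (Ideal.Quotient.eq_zero_iff_mem.1 e)).elim hb fun h => X.ev_h x (hx h)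
  obtain ⟨ψ, h1, h2⟩ := dense_pts (Ideal.Quotient.liftₐ 𝔭 (X.ev x) fun a ha => hx ha) hb'
  simp only [map_mul, mul_ne_zero_iff] at h1
  choose z hz using fun l => X.surj ((ψ l).comp (Ideal.Quotient.mkₐ ℂ 𝔭)) (h1 l).2
  refine ⟨z, X.tendsto_of_ev fun a => ?_, fun l => ⟨fun a ha => ?_, ?_⟩⟩
  · simp only [hz]
    exact h2 (Ideal.Quotient.mk 𝔭 a)
  · rw [RingHom.mem_ker, hz, AlgHom.comp_apply, Ideal.Quotient.mkₐ_eq_mk,
      Ideal.Quotient.eq_zero_iff_mem.2 ha, map_zero]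
  · rw [hz]
    exact (h1 l).1

end Vale.Agent.P271
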