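import Vale.Agent.P271.M.CaseB0
import Vale.Agent.P271.M.Close
import Vale.Agent.P271.M.TB
import Vale.Agent.P271.A.ValB
import Vale.Agent.P271.G.P3

/-! P271 M/CaseB: a minimiser has no positive dimensional centre.

Plan. `exists_tb` gives `d, τ`; `valB` gives `b₁, δ` (its conclusion is `ValOut` by `exact`). With `k`
from `hL`, `k' = k + p ^ d`, `H = (1 - ε) p L`, `R = d p (1 - ε) ^ 3 / μ`, `J = d! D`, `hdeg` gives `hH`.
Choose `σ > 0` below all `w i` with `σ J ≤ min 1 δ`, `β μ σ J ≤ ε`. Points `z l` from `exists_pts` for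
`b * b₁`; drop finitely many (`Filter.Eventually.exists_forall_of_atTop`, shift the index) so that
`Adm (EE G w) (z l) c`. `adm_add` (the family is `X.fam (Sum.elim ..)` by `funext`, `cases`) and
`adm_of_J` make the output of `competitor` admissible with `c + σ d`; its value is at most
`P.G - σ d η`, `η = β p (1 - ε) ^ 4 (1 - 2 ε) - 1 > 0`. `close` with constant `μ`, `g` contradicts
minimality. Auxiliary names start with `cb1_`. -/

open MeasureTheory Set Filter Topology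
open scoped ContDiff ENNReal ComplexConjugate

noncomputable section

namespace Vale.Agent.P271

variable {n M : ℕ} {A Ω : Type} [CommRing A] [IsDomain A] [Algebra ℂ A] [TopologicalSpace Ω]
  [T2Space Ω] [SecondCountableTopology Ω] [MeasurableSpace Ω] [BorelSpace Ω] (X : Aff n M A Ω)

theorem Aff.caseB {p K L D : ℕ} {A₀ β ε r μ₀ μ₁ μ c : ℝ} {P : Dat (Vk X.x) K A₀} {x : Ω}
    (hp : 1 ≤ p) (hdeg : DegHyp X.x p) (hβ : 0 < β) (hε : 0 < ε) (hε' : ε < 1 / 2) (hr : 0 ≤ r)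
    (h₀ : 0 < μ₀) (hA : 1 ≤ A₀) (hgain : 1 < β * p * (1 - ε) ^ 4 * (1 - 2 * ε)) (hL1 : 1 ≤ L)
    (hLK : L ≤ K) (hD : Module.finrank ℂ (Vk X.x K) ≤ D)
    (hL : ∀ d, 1 ≤ d → d ≤ M → ∃ k, k + p ^ d + d = L ∧
      ((1 - ε) * p * L) ^ d ≤ d.factorial * ((p ^ d * (k + d).choose d : ℕ) : ℝ) ∧
      ∀ μ, 0 < μ → μ ≤ μ₁ → d * p * (1 - ε) ^ 3 / μ ≤
        d * ((1 - ε) * p * L) * Real.exp (-(μ * L)) / (μ * L) - (d + 2))
    (herr : ∀ d ≤ M, ∀ μ, μ₀ ≤ μ → (D : ℝ) * (d / (μ * L) * Real.exp (-(μ * K)) *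
      ((1 - ε) * p * L * D + L * d.factorial * (D : ℝ) ^ 2)) ≤ ε * (d * p * (1 - ε) ^ 3 / μ))
    (htop : ∀ b, β * μ₀ ≤ b → D * Real.exp (-(b * (A₀ - 1))) ≤ ε)
    (h : X.IsMin x β r μ₀ μ₁ P μ c) {𝔭 : Ideal A} (h𝔭 : 𝔭.IsPrime)
    (h1 : 𝔭 ≤ RingHom.ker (X.ev x)) (h2 : 𝔭 ≠ RingHom.ker (X.ev x)) {ι : Type} [Fintype ι]
    {G : ι → A} {w : ι → ℝ} (hw : ∀ i, 0 < w i) (hG : Ideal.span (range G) = 𝔭)
    (hP : ∀ i, 0 < P.a i → P.s i ∈ Jw G w (P.a i)) {b : A} (hb : b ∉ 𝔭)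
    (adm : ∀ᶠ z in 𝓝 x, 𝔭 ≤ RingHom.ker (X.ev z) → X.ev z b ≠ 0 →
      X.toEtDom.Adm (X.EE G w) z c) : False := by
  classical
  obtain ⟨d, τ, hd, hdM, hτ⟩ := exists_tb X.gen h𝔭 h1 h2
  obtain ⟨b₁, hb₁, δ, hδ, val⟩ := valB X.x X.gen 𝔭 G w hw hG K τ hτ
  obtain ⟨k, hk, hH, hR⟩ := hL d hd hdM
  have hμ : 0 < μ := h₀.trans_le h.1.1
  have hc : 0 ≤ c := h.2.1.1
  have hp0 : (0 : ℝ) < p := by exact_mod_cast hp
  have hL0 : (0 : ℝ) < L := by exact_mod_cast hL1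
  have hd0 : (0 : ℝ) < d := by exact_mod_cast hd
  have he1 : 0 < 1 - ε := by linarith
  obtain ⟨σ, hσ, hσw, hs1, hs2, hs3⟩ : ∃ σ : ℝ, 0 < σ ∧ (∀ i, σ ≤ w i) ∧
      σ * (d.factorial * D : ℕ) ≤ 1 ∧ β * μ * σ * (d.factorial * D : ℕ) ≤ ε ∧
      σ * (d.factorial * D : ℕ) ≤ δ := by
    have t0 : ∀ (B e : ℝ), 0 < e → ∀ᶠ σ in 𝓝[>] (0 : ℝ), B * σ ≤ e := fun B e he => by
      have : Tendsto (fun σ : ℝ => B * σ) (𝓝[>] 0) (𝓝 (B * 0)) :=
        (tendsto_id.const_mul B).mono_left nhdsWithin_le_nhds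
      rw [mul_zero] at this
      exact this.eventually (ge_mem_nhds he)
    have e1 : ∀ᶠ σ in 𝓝[>] (0 : ℝ), ∀ i, 1 * σ ≤ w i := eventually_all.2 fun i => t0 1 _ (hw i)
    obtain ⟨σ, ⟨⟨⟨a1, a2⟩, a3⟩, a4⟩, a5⟩ := ((((e1.and (t0 (d.factorial * D : ℕ) 1 one_pos)).and
      (t0 (β * μ * (d.factorial * D : ℕ)) ε hε)).and (t0 (d.factorial * D : ℕ) δ hδ)).and
      self_mem_nhdsWithin).exists
    exact ⟨σ, a5, fun i => by linarith [a1 i], by linarith, by linarith, by linarith⟩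
  obtain ⟨z, hz, hzp⟩ := X.exists_pts h𝔭 h1 (b := b * b₁) fun h' => (h𝔭.mem_or_mem h').elim hb hb₁
  obtain ⟨l₀, hl₀⟩ := (hz.eventually adm).exists_forall_of_atTop
  have hH' : ((1 - ε) * p * L) ^ d ≤ d.factorial * (Module.finrank ℂ
      ((Vk X.x (k + p ^ d)).map (Ideal.Quotient.mkₐ ℂ 𝔭).toLinearMap) : ℝ) :=
    hH.trans (mul_le_mul_of_nonneg_left (Nat.cast_le.2 (hdeg 𝔭 h𝔭 d _ hτ k)) (by positivity))
  have main : ∀ l, ∃ P' : Dat (Vk X.x) K A₀, X.Ok P' (z (l + l₀)) (c + σ * d) ∧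
      P'.G β r μ (c + σ * d) ≤
        P.G β r μ c - σ * d * (β * p * (1 - ε) ^ 4 * (1 - 2 * ε) - 1) := fun l => by
    obtain ⟨q1, q2⟩ := hzp (l + l₀)
    rw [map_mul] at q2
    obtain ⟨P', hJ, hZ⟩ := competitor h𝔭 (val _ q1 (right_ne_zero_of_mul q2)) P hP hd hk hLK hD
      le_rfl (by positivity) hH' hμ (mul_pos hβ hμ) hσ (by linarith) hA (by positivity)
      (hR μ hμ h.1.2) (herr d hdM μ h.1.1) hs1 hs2
      (htop _ (mul_le_mul_of_nonneg_left h.1.1 hβ.le)) hσw hs3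
    have a1 := hl₀ (l + l₀) (Nat.le_add_left _ _) q1 (left_ne_zero_of_mul q2)
    have a2 := EtDom.adm_add (d := d) (fun i => X.hol_fam G i _) hc a1
      (f := X.fam fun j => X.x (τ j) - algebraMap ℂ A (X.ev (z (l + l₀)) (X.x (τ j))))
      (fun j => ⟨X.hol_fam _ j _, by simp [Aff.fam]⟩) hσ
    have e : Sum.elim (X.fam G)
        (X.fam fun j => X.x (τ j) - algebraMap ℂ A (X.ev (z (l + l₀)) (X.x (τ j)))) =
        X.fam (Sum.elim G fun j =>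
          X.x (τ j) - algebraMap ℂ A (X.ev (z (l + l₀)) (X.x (τ j)))) := by
      funext i
      cases i <;> rfl
    rw [e] at a2
    have hc' : 0 ≤ c + σ * d := by positivity
    refine ⟨P', ⟨hc', X.adm_of_J (fun i => ?_) hc' a2 hJ⟩, ?_⟩
    · cases i
      · exact (hw _).le
      · exact hσ.le
    · have e2 : σ * (β * μ) * (d * p * (1 - ε) ^ 3 / μ) * (1 - ε) * (1 - 2 * ε) =
          σ * d * (β * p * (1 - ε) ^ 4 * (1 - 2 * ε)) := by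
        field_simp
      rw [e2] at hZ
      unfold Dat.G
      linarith
  choose P' ok hG' using main
  obtain ⟨μ', hμ', c', P'', ok', hle⟩ := X.close hβ.le (by linarith) hr h₀
    (hz.comp (tendsto_add_atTop_nat l₀)) (μ := fun _ => μ) (fun _ => h.1) P' ok hG'
    tendsto_const_nhds
  have h3 := h.2.2 μ' hμ' c' P'' ok'
  have h4 : 0 < σ * d * (β * p * (1 - ε) ^ 4 * (1 - 2 * ε) - 1) :=
    mul_pos (by positivity) (by linarith)
  linarith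

end Vale.Agent.P271
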