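import Vale.Agent.P271.M.JB
import Vale.Agent.P271.C.GainSum
import Vale.Agent.P271.C.Bnd

/-! P271 M/CaseB0: the competitor at a general point of the subvariety (algebraic part).

Plan. Unpack `ValOut`; `IsLeaf.flag` gives `s, κ`. Put `lam i = wt (ℓ (s i))`, `α i = al (ℓ (s i))`,
new weights `min (lam i + σ * min |α i| J) A₀`. Membership: the weight is at most
`lam i + min (σ |α i|) δ` because `σ J ≤ δ` (`Jw_anti`). `gain_sum`: injectivity from the third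
clause and injectivity of `ℓ ∘ s`; `i₀` from `g = 1`, `k = 0` (`1 ∉ 𝔭`); `shift` from the last clause
(`s i ∈ Vk x k` by `Vk_mono`) and the surjectivity clause of `flag`; `Γ` is nonempty since `0 < H ^ d`;
`card ι = finrank (Vk x K)` by `FlagBasis.card`. Finally `Zf κ (min lam A₀) ≤ Zf P.κ P.a` by `Zf_eq`
and `dom_level` (`T = {i | P.κ i ≤ k}`, `φ y = exp (-(b * min y A₀))`, `P.a i ≤ wt (ℓ (P.s i))`), and
the factor is nonnegative because `Zf` is positive. Auxiliary names start with `cb0_`. -/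

open MeasureTheory Set Filter Topology
open scoped ContDiff ENNReal ComplexConjugate

noncomputable section

namespace Vale.Agent.P271

variable {A : Type} [CommRing A] [IsDomain A] [Algebra ℂ A] {M : ℕ}

/-- The output of `valB` at the point `φ`. -/
def ValOut (x : Fin M → A) (𝔭 : Ideal A) {ι : Type} [Fintype ι] (G : ι → A) (w : ι → ℝ) (K : ℕ)
    {d : ℕ} (τ : Fin d → Fin M) (δ : ℝ) (φ : A →ₐ[ℂ] ℂ) : Prop :=
  ∃ (Λ : Type) (_ : LinearOrder Λ) (ℓ : A → Λ) (wt : Λ → ℝ) (cl : Λ → ℕ)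
    (al : Λ → Fin d → ℕ), IsLeaf (Vk x K) ℓ ∧ Monotone wt ∧
    (∀ f ∈ Vk x K, ∀ g ∈ Vk x K, f ≠ 0 → g ≠ 0 → wt (ℓ f) = wt (ℓ g) → cl (ℓ f) = cl (ℓ g) →
      al (ℓ f) = al (ℓ g) → ℓ f = ℓ g) ∧
    (∀ g ∈ Vk x K, g ≠ 0 → 0 ≤ wt (ℓ g) ∧ (g ∉ 𝔭 → wt (ℓ g) = 0) ∧
      (∀ l, g ∈ Jw G w l → l ≤ wt (ℓ g)) ∧
      ∀ σ > (0 : ℝ), (∀ i, σ ≤ w i) → ∃ t, φ t ≠ 0 ∧ t * g ∈
        Jw (Sum.elim G fun j => x (τ j) - algebraMap ℂ A (φ (x (τ j))))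
          (Sum.elim w fun _ => σ) (wt (ℓ g) + min (σ * ∑ j, (al (ℓ g) j : ℝ)) δ)) ∧
    ∀ k', ∃ Γ : Finset (Fin d → ℕ), Γ.card =
      Module.finrank ℂ ((Vk x k').map (Ideal.Quotient.mkₐ ℂ 𝔭).toLinearMap) ∧
      ∀ γ ∈ Γ, ∀ e : Fin d → ℕ, (∀ j, e j ≤ 1) → ∀ k, k + k' + d ≤ K → ∀ g ∈ Vk x k, g ≠ 0 →
        ∃ g' ∈ Vk x (k + k' + d), g' ≠ 0 ∧ wt (ℓ g') = wt (ℓ g) ∧ cl (ℓ g') = cl (ℓ g) ∧
          al (ℓ g') = al (ℓ g) + γ + e

theorem competitor {x : Fin M → A} {𝔭 : Ideal A} (hp : 𝔭.IsPrime) {ι : Type} [Fintype ι]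
    {G : ι → A} {w : ι → ℝ} {K d : ℕ} {τ : Fin d → Fin M} {δ : ℝ} {φ : A →ₐ[ℂ] ℂ}
    (val : ValOut x 𝔭 G w K τ δ φ) {A₀ : ℝ} (P : Dat (Vk x) K A₀)
    (hP : ∀ i, 0 < P.a i → P.s i ∈ Jw G w (P.a i)) (hd : 1 ≤ d) {k' L D J : ℕ} (hL : k' + d = L)
    (hLK : L ≤ K) (hD : Module.finrank ℂ (Vk x K) ≤ D) (hJ : d.factorial * D ≤ J) {H : ℝ}
    (H0 : 0 < H) (hH : H ^ d ≤ d.factorial *
      (Module.finrank ℂ ((Vk x k').map (Ideal.Quotient.mkₐ ℂ 𝔭).toLinearMap) : ℝ))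
    {μ b σ ε R : ℝ} (hμ : 0 < μ) (hb : 0 < b) (hσ : 0 < σ) (hε : ε ≤ 1) (hA : 1 ≤ A₀)
    (R0 : 0 ≤ R) (hR : R ≤ d * H * Real.exp (-(μ * L)) / (μ * L) - (d + 2))
    (herr : D * (d / (μ * L) * Real.exp (-(μ * K)) * (H * D + L * d.factorial * D ^ 2)) ≤ ε * R)
    (hsJ : σ * J ≤ 1) (hbJ : b * σ * J ≤ ε) (htop : D * Real.exp (-(b * (A₀ - 1))) ≤ ε)
    (hσw : ∀ i, σ ≤ w i) (hδ : σ * J ≤ δ) :
    ∃ P' : Dat (Vk x) K A₀, (∀ i, 0 < P'.a i → ∃ t, φ t ≠ 0 ∧ t * P'.s i ∈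
        Jw (Sum.elim G fun j => x (τ j) - algebraMap ℂ A (φ (x (τ j))))
          (Sum.elim w fun _ => σ) (P'.a i)) ∧
      Real.log (Zf P'.κ P'.a μ b) ≤
        Real.log (Zf P.κ P.a μ b) - σ * b * R * (1 - ε) * (1 - 2 * ε) := by
  classical
  obtain ⟨Λ, _, ℓ, wt, cl, al, hleaf, hwt, hinj, hprop, hshift⟩ := val
  obtain ⟨ι', _, s, κ, fb, hi, hsur⟩ := hleaf.flag (Vk_mono x)
  have hs0 : ∀ i, s i ≠ 0 := fun i => fb.li.ne_zero i
  have hsK : ∀ i, s i ∈ Vk x K := fun i => Vk_mono x (fb.le i) (fb.mem i)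
  have hlam : ∀ i, 0 ≤ wt (ℓ (s i)) := fun i => (hprop _ (hsK i) (hs0 i)).1
  let P' : Dat (Vk x) K A₀ :=
    { ι := ι', s := s, κ := κ, fb := fb
      a := fun i => min (wt (ℓ (s i)) + σ * ((min (∑ j, al (ℓ (s i)) j) J : ℕ) : ℝ)) A₀
      a0 := fun i => le_min (add_nonneg (hlam i) (by positivity)) (by linarith)
      a1 := fun i => min_le_right _ _ }
  refine ⟨P', fun i _ => ?_, ?_⟩
  · obtain ⟨t, ht, hmem⟩ := (hprop _ (hsK i) (hs0 i)).2.2.2 σ hσ hσw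
    refine ⟨t, ht, Jw_anti _ _ ((min_le_left _ _).trans ?_) hmem⟩
    refine add_le_add le_rfl (le_min ?_ ?_)
    · refine mul_le_mul_of_nonneg_left ?_ hσ.le
      rw [← Nat.cast_sum]
      exact Nat.cast_le.2 (min_le_left _ _)
    · exact (mul_le_mul_of_nonneg_left (Nat.cast_le.2 (min_le_right _ _)) hσ.le).trans hδ
  obtain ⟨Γ, hΓ, hsh⟩ := hshift k'
  have hcard : Fintype.card ι' ≤ D := by
    have h := fb.card (Vk_mono x) le_rfl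
    rw [Finset.filter_true_of_mem fun i _ => fb.le i, Finset.card_univ] at h
    exact h.trans_le hD
  obtain ⟨i₀, hi₀, hi₀'⟩ := hsur 0 (Nat.zero_le K) 1 (one_mem_Vk x 0) one_ne_zero
  have h₀ : κ i₀ = 0 ∧ wt (ℓ (s i₀)) = 0 := ⟨Nat.le_zero.1 hi₀, by
    rw [hi₀']
    exact (hprop 1 (one_mem_Vk x K) one_ne_zero).2.1 ((Ideal.ne_top_iff_one _).1 hp.ne_top)⟩
  rw [← hΓ] at hH
  have hne : Γ.Nonempty := by
    rw [← Finset.card_pos]
    by_contra h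
    have h0 : Γ.card = 0 := by omega
    rw [h0, Nat.cast_zero, mul_zero] at hH
    exact absurd (pow_pos H0 d) (not_lt.2 hH)
  have key := gain_sum (κ := κ) (lam := fun i => wt (ℓ (s i))) (cl := fun i => cl (ℓ (s i)))
    (α := fun i => al (ℓ (s i))) hd fb.le (by omega) hLK hcard hJ hlam
    (fun i i' h1 h2 h3 => hi (hinj _ (hsK i) _ (hsK i') (hs0 i) (hs0 i') h1 h2 h3)) h₀ hne H0.le hH
    (fun i γ hγ e he k hk hkL => by
      obtain ⟨g', hg', hg0, h1, h2, h3⟩ := hsh γ hγ e he k (by omega) (s i)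
        (Vk_mono x hk (fb.mem i)) (hs0 i)
      obtain ⟨i', hi1, hi2⟩ := hsur (k + k' + d) (by omega) g' hg' hg0
      exact ⟨i', by omega, by rw [hi2, h1], by rw [hi2, h2], by rw [hi2, h3]⟩)
    hμ hb hσ hε hA R0 hR herr hsJ hbJ htop
  have hdom : Zf κ (fun i => min (wt (ℓ (s i))) A₀) μ b ≤ Zf P.κ P.a μ b := by
    rw [Zf_eq fb.le, Zf_eq P.fb.le]
    refine Finset.sum_le_sum fun k hk => mul_le_mul_of_nonneg_left ?_ (wk_nonneg hμ.le K k)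
    have hk' : k ≤ K := Nat.lt_succ_iff.1 (Finset.mem_range.1 hk)
    have hφ : Antitone fun y : ℝ => Real.exp (-(b * min y A₀)) := fun y y' h =>
      Real.exp_le_exp.2 (neg_le_neg (mul_le_mul_of_nonneg_left (min_le_min_right _ h) hb.le))
    have h := dom_level (Vk_mono x) hleaf hwt fb hi hsur hk' (g := P.s)
      (Finset.univ.filter fun i => P.κ i ≤ k) (P.fb.li.comp _ Subtype.val_injective)
      (fun i hi => Vk_mono x (Finset.mem_filter.1 hi).2 (P.fb.mem i))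
      (P.fb.card (Vk_mono x) hk') (a := P.a) (fun i _ => by
        have hm := hprop _ (Vk_mono x (P.fb.le i) (P.fb.mem i)) (P.fb.li.ne_zero i)
        rcases (P.a0 i).eq_or_lt with h | h
        · exact h ▸ hm.1
        · exact hm.2.2.1 _ (hP i h)) hφ
    refine h.trans (Finset.sum_le_sum fun i _ => ?_)
    rw [min_eq_left (P.a1 i)]
  have : Nonempty ι' := ⟨i₀⟩
  have := P.nonempty
  have p1 : 0 < Zf P'.κ P'.a μ b := Zf_pos _ _ _ _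
  have p0 := Zf_pos κ (fun i => min (wt (ℓ (s i))) A₀) μ b
  have hf : 0 < 1 - σ * b * R * (1 - ε) * (1 - 2 * ε) :=
    (mul_pos_iff_of_pos_left p0).1 (p1.trans_le key)
  have h2 := Real.log_le_log p1 (key.trans (mul_le_mul_of_nonneg_right hdom hf.le))
  rw [Real.log_mul (Zf_pos _ _ _ _).ne' hf.ne'] at h2
  have h3 := Real.log_le_sub_one_of_pos hf
  linarith

end Vale.Agent.P271
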