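import Vale.Agent.P271.A.Norm

/-! P271 M/Defs: the data of the variational problem. -/

open MeasureTheory Set Filter Topology
open scoped ContDiff ENNReal ComplexConjugate

noncomputable section

namespace Vale.Agent.P271

/-- A flag basis with weights in `[0, A₀]`. -/
structure Dat {A : Type} [AddCommGroup A] [Module ℂ A] (V : ℕ → Submodule ℂ A) (K : ℕ) (A₀ : ℝ) where
  ι : Type
  [fin : Fintype ι]
  s : ι → A
  κ : ι → ℕ
  a : ι → ℝ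
  fb : FlagBasis V K s κ
  a0 : ∀ i, 0 ≤ a i
  a1 : ∀ i, a i ≤ A₀

instance {A : Type} [AddCommGroup A] [Module ℂ A] {V : ℕ → Submodule ℂ A} {K : ℕ} {A₀ : ℝ}
    (P : Dat V K A₀) : Fintype P.ι := P.fin

/-- The functional. -/
def Dat.G {A : Type} [AddCommGroup A] [Module ℂ A] {V : ℕ → Submodule ℂ A} {K : ℕ} {A₀ : ℝ}
    (P : Dat V K A₀) (β r μ c : ℝ) : ℝ :=
  c + Real.log (Zf P.κ P.a μ (β * μ)) + r * Real.log μ

variable {n M : ℕ} {A Ω : Type} [CommRing A] [Algebra ℂ A] [TopologicalSpace Ω]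
  [MeasurableSpace Ω] (X : Aff n M A Ω)

/-- A family of regular functions as functions on `Ω`. -/
def Aff.fam {ι : Type} (s : ι → A) : ι → Ω → ℂ := fun i z => X.ev z (s i)

/-- The weighted sum of a family of regular functions. -/
def Aff.EE {ι : Type} [Fintype ι] (s : ι → A) (a : ι → ℝ) : Ω → ℝ := wE (X.fam s) a

/-- Admissible data at `z`. -/
def Aff.Ok {K : ℕ} {A₀ : ℝ} (P : Dat (Vk X.x) K A₀) (z : Ω) (c : ℝ) : Prop :=
  0 ≤ c ∧ X.toEtDom.Adm (X.EE P.s P.a) z c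

/-- Minimisers. -/
def Aff.IsMin {K : ℕ} {A₀ : ℝ} (z : Ω) (β r μ₀ μ₁ : ℝ) (P : Dat (Vk X.x) K A₀) (μ c : ℝ) : Prop :=
  μ ∈ Icc μ₀ μ₁ ∧ X.Ok P z c ∧ ∀ μ' ∈ Icc μ₀ μ₁, ∀ (c' : ℝ) (P' : Dat (Vk X.x) K A₀),
    X.Ok P' z c' → P.G β r μ c ≤ P'.G β r μ' c'

end Vale.Agent.P271
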