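import Vale.Agent.P271.M.Defs
import Vale.Agent.P271.G.Basic

/-! P271 M/JB: the ideals `Jw` and their growth.

Plan. `jbound`: `Submodule.span_induction`; on the compact `S` all functions `ev · g` and `EE` are
bounded. For a monomial, factors with `0 < w i` satisfy `|G i| ^ 2 ≤ E ^ w i` (`sq_le_wE`), those with
`w i = 0` are bounded, and `E ^ l' ≤ B ^ (l' - l) E ^ l` for `l ≤ l'`, `E ≤ B`. `adm_of_J`: on a compact
neighbourhood (`locallyCompact`) where `|t| ≥ δ`, each term of `EE s' a'` is at most `C * EE G w`;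
`Adm.of_le`. `one_le_level`: otherwise `s i` is a nonzero constant (`Vk_zero`, `fb.li.ne_zero`), so
`EE x > 0`, against `NI.nonpos`. Auxiliary names start with `jb_`. -/

open MeasureTheory Set Filter Topology
open scoped ContDiff ENNReal ComplexConjugate

noncomputable section

namespace Vale.Agent.P271

section

variable {A ι : Type} [CommRing A] [Fintype ι] (G : ι → A) (w : ι → ℝ)

theorem Jw_anti {l l' : ℝ} (h : l ≤ l') : Jw G w l' ≤ Jw G w l :=
  Ideal.span_mono fun _ ⟨m, hm, e⟩ => ⟨m, h.trans hm, e⟩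

theorem mem_Jw_self (i : ι) : G i ∈ Jw G w (w i) := by
  classical
  refine Ideal.subset_span ⟨Pi.single i 1, ?_, ?_⟩
  · rw [Finset.sum_eq_single i]
    · simp
    · intro j _ hj
      simp [Pi.single_eq_of_ne hj]
    · simp
  · rw [Finset.prod_eq_single i]
    · simp
    · intro j _ hj
      simp [Pi.single_eq_of_ne hj]
    · simp

theorem mem_Jw_of_span [Algebra ℂ A] {l : ℝ} {g : A}
    (h : g ∈ Submodule.span ℂ (G '' {i | l ≤ w i})) : g ∈ Jw G w l := by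
  induction h using Submodule.span_induction with
  | mem x hx =>
    obtain ⟨i, hi, rfl⟩ := hx
    exact Jw_anti G w hi (mem_Jw_self G w i)
  | zero => exact zero_mem _
  | add x y _ _ hx hy => exact add_mem hx hy
  | smul c x _ hx =>
    rw [Algebra.smul_def]
    exact Ideal.mul_mem_left _ _ hx

theorem mem_Jw_nonpos {l : ℝ} (h : l ≤ 0) (g : A) : g ∈ Jw G w l := by
  have h1 : (1 : A) ∈ Jw G w l := Ideal.subset_span ⟨0, by simpa using h, by simp⟩
  simpa using Ideal.mul_mem_left _ g h1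

end

theorem Dat.nonempty {A : Type} [CommRing A] [IsDomain A] [Algebra ℂ A] {M : ℕ} {x : Fin M → A}
    {K : ℕ} {A₀ : ℝ} (P : Dat (Vk x) K A₀) : Nonempty P.ι := by
  by_contra hne
  rw [not_nonempty_iff] at hne
  have h := P.fb.span 0 (Nat.zero_le _) (one_mem_Vk x 0)
  have e : P.s '' {i | P.κ i ≤ 0} = ∅ := by
    rw [image_eq_empty]
    exact eq_empty_of_isEmpty _
  rw [e, Submodule.span_empty, Submodule.mem_bot] at h
  exact one_ne_zero h

variable {n M : ℕ} {A Ω : Type} [CommRing A] [IsDomain A] [Algebra ℂ A] [TopologicalSpace Ω]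
  [T2Space Ω] [SecondCountableTopology Ω] [MeasurableSpace Ω] [BorelSpace Ω] (X : Aff n M A Ω)

omit [IsDomain A] [T2Space Ω] [SecondCountableTopology Ω] [BorelSpace Ω] in

theorem Aff.hol_fam {ι : Type} (s : ι → A) (i : ι) (z : Ω) : X.toEtDom.HolAt (X.fam s i) z :=
  X.hol (s i) z

theorem Aff.continuous_fam {ι : Type} (s : ι → A) (i : ι) : Continuous (X.fam s i) :=
  X.continuous_ev (s i)

theorem Aff.continuous_EE {ι : Type} [Fintype ι] (s : ι → A) (a : ι → ℝ) :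
    Continuous (X.EE s a) :=
  continuous_iff_continuousAt.2 fun z =>
    wE_continuousAt (X.fam s) a z fun i => (X.continuous_fam s i).continuousAt

omit [T2Space Ω] [SecondCountableTopology Ω] [MeasurableSpace Ω] [BorelSpace Ω] in
theorem jb_bdd {S : Set Ω} (hS : IsCompact S) {f : Ω → ℝ} (hf : Continuous f) :
    ∃ B : ℝ, 0 < B ∧ ∀ z ∈ S, f z ≤ B := by
  obtain ⟨B, hB⟩ := hS.bddAbove_image hf.continuousOn
  exact ⟨max B 1, lt_max_of_lt_right one_pos, fun z hz =>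
    le_max_of_le_left (hB (mem_image_of_mem f hz))⟩

theorem jb_mono {ι : Type} [Fintype ι] {e B l : ℝ} {w C g : ι → ℝ} {m : ι → ℕ} (he : 0 ≤ e)
    (hB : e ≤ B) (hw : ∀ i, 0 ≤ w i) (hl : 0 ≤ l) (hm : l ≤ ∑ i, (m i : ℝ) * w i)
    (hC : ∀ i, 0 ≤ C i) (_hg : ∀ i, 0 ≤ g i) (h : ∀ i, g i ^ 2 ≤ C i * e ^ w i) :
    ∏ i, (g i ^ m i) ^ 2 ≤ (∏ i, C i ^ m i) * B ^ (∑ i, (m i : ℝ) * w i - l) * e ^ l := by
  have h1 : ∏ i, (g i ^ m i) ^ 2 ≤ ∏ i, (C i ^ m i * e ^ ((m i : ℝ) * w i)) := by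
    refine Finset.prod_le_prod (fun i _ => sq_nonneg _) fun i _ => ?_
    rw [← pow_mul, mul_comm (m i) 2, pow_mul, mul_comm (m i : ℝ), Real.rpow_mul he,
      Real.rpow_natCast, ← mul_pow]
    exact pow_le_pow_left₀ (sq_nonneg _) (h i) _
  rw [Finset.prod_mul_distrib, ← Real.rpow_sum_of_nonneg he
    fun i _ => mul_nonneg (Nat.cast_nonneg _) (hw i)] at h1
  refine h1.trans ?_
  rw [mul_assoc]
  refine mul_le_mul_of_nonneg_left ?_ (Finset.prod_nonneg fun i _ => pow_nonneg (hC i) _)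
  have h2 : e ^ (∑ i, (m i : ℝ) * w i) = e ^ (∑ i, (m i : ℝ) * w i - l) * e ^ l := by
    rw [← Real.rpow_add_of_nonneg he (sub_nonneg.2 hm) hl, sub_add_cancel]
  rw [h2]
  exact mul_le_mul_of_nonneg_right (Real.rpow_le_rpow he hB (sub_nonneg.2 hm))
    (Real.rpow_nonneg he _)

theorem Aff.jbound {ι : Type} [Fintype ι] {G : ι → A} {w : ι → ℝ} (hw : ∀ i, 0 ≤ w i) {l : ℝ}
    (hl : 0 ≤ l) {g : A} (hg : g ∈ Jw G w l) {S : Set Ω} (hS : IsCompact S) :
    ∃ C : ℝ, 0 < C ∧ ∀ z ∈ S, ‖X.ev z g‖ ^ 2 ≤ C * X.EE G w z ^ l := by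
  have hE : ∀ z, 0 ≤ X.EE G w z := fun z => wE_nonneg (X.fam G) w z
  induction hg using Submodule.span_induction with
  | mem x hx =>
    obtain ⟨m, hm, rfl⟩ := hx
    have h1 : ∀ i, ∃ C : ℝ, 0 < C ∧ ∀ z ∈ S, ‖X.ev z (G i)‖ ^ 2 ≤ C * X.EE G w z ^ w i := by
      intro i
      rcases (hw i).eq_or_lt with h0 | h0
      · obtain ⟨B, hB, hb⟩ := jb_bdd hS ((X.continuous_ev (G i)).norm.pow 2)
        refine ⟨B, hB, fun z hz => ?_⟩
        rw [← h0, Real.rpow_zero, mul_one]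
        exact hb z hz
      · refine ⟨1, one_pos, fun z _ => ?_⟩
        rw [one_mul]
        exact sq_le_wE (X.fam G) w z h0
    choose C hC hb using h1
    obtain ⟨B, hB, hbB⟩ := jb_bdd hS (X.continuous_EE G w)
    refine ⟨(∏ i, C i ^ m i) * B ^ (∑ i, (m i : ℝ) * w i - l),
      mul_pos (Finset.prod_pos fun i _ => pow_pos (hC i) _) (Real.rpow_pos_of_pos hB _),
      fun z hz => ?_⟩
    rw [map_prod, norm_prod, ← Finset.prod_pow]
    simp only [map_pow, norm_pow]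
    exact jb_mono (hE z) (hbB z hz) hw hl hm (fun i => (hC i).le) (fun i => norm_nonneg _)
      fun i => hb i z hz
  | zero =>
    refine ⟨1, one_pos, fun z _ => ?_⟩
    rw [map_zero, norm_zero, one_mul, zero_pow two_ne_zero]
    exact Real.rpow_nonneg (hE z) _
  | add x y _ _ hx hy =>
    obtain ⟨C, hC, hx⟩ := hx
    obtain ⟨C', hC', hy⟩ := hy
    refine ⟨2 * C + 2 * C', by positivity, fun z hz => ?_⟩
    have h1 := hx z hz
    have h2 := hy z hz
    have h3 : ‖X.ev z (x + y)‖ ≤ ‖X.ev z x‖ + ‖X.ev z y‖ := by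
      rw [map_add]
      exact norm_add_le _ _
    have h4 := pow_le_pow_left₀ (norm_nonneg _) h3 2
    nlinarith [sq_nonneg (‖X.ev z x‖ - ‖X.ev z y‖)]
  | smul c x _ hx =>
    obtain ⟨C, hC, hx⟩ := hx
    obtain ⟨B, hB, hb⟩ := jb_bdd hS ((X.continuous_ev c).norm.pow 2)
    refine ⟨B * C, mul_pos hB hC, fun z hz => ?_⟩
    rw [smul_eq_mul, map_mul, norm_mul, mul_pow, mul_assoc]
    exact mul_le_mul (hb z hz) (hx z hz) (by positivity) hB.le

theorem jb_root {a C δ t g e : ℝ} (ha : 0 < a) (hC : 0 < C) (hδ : 0 < δ) (ht : δ ≤ t) (hg : 0 ≤ g)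
    (he : 0 ≤ e) (h : t ^ 2 * g ^ 2 ≤ C * e ^ a) : g ^ (2 / a) ≤ (C / δ ^ 2) ^ (1 / a) * e := by
  have h1 : g ^ 2 ≤ C / δ ^ 2 * e ^ a := by
    rw [div_mul_eq_mul_div, le_div_iff₀ (by positivity), mul_comm]
    exact (mul_le_mul_of_nonneg_right (pow_le_pow_left₀ hδ.le ht 2) (sq_nonneg _)).trans h
  have h2 := Real.rpow_le_rpow (sq_nonneg _) h1 (one_div_pos.2 ha).le
  rw [Real.mul_rpow (by positivity) (Real.rpow_nonneg he _), ← Real.rpow_mul he,
    mul_one_div_cancel ha.ne', Real.rpow_one, ← Real.rpow_natCast, ← Real.rpow_mul hg] at h2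
  rw [div_eq_mul_one_div]
  exact_mod_cast h2

theorem Aff.adm_of_J {ι ι' : Type} [Fintype ι] [Fintype ι'] {G : ι → A} {w : ι → ℝ}
    (hw : ∀ i, 0 ≤ w i) {s : ι' → A} {a : ι' → ℝ} {z : Ω} {c : ℝ} (hc : 0 ≤ c)
    (h : X.toEtDom.Adm (X.EE G w) z c)
    (hJ : ∀ i, 0 < a i → ∃ t, X.ev z t ≠ 0 ∧ t * s i ∈ Jw G w (a i)) :
    X.toEtDom.Adm (X.EE s a) z c := by
  have hE : ∀ z, 0 ≤ X.EE G w z := fun z => wE_nonneg (X.fam G) w z
  have := X.toEtDom.locallyCompact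
  obtain ⟨S, hS, hzS⟩ := exists_compact_mem_nhds z
  have h1 : ∀ i, ∃ C : ℝ, 0 < C ∧ ∀ᶠ u in 𝓝 z,
      (if 0 < a i then ‖X.fam s i u‖ ^ (2 / a i) else 0) ≤ C * X.EE G w u := by
    intro i
    by_cases hi : 0 < a i
    · obtain ⟨t, ht, hJ⟩ := hJ i hi
      obtain ⟨C, hC, hb⟩ := X.jbound hw hi.le hJ hS
      have hδ : 0 < ‖X.ev z t‖ / 2 := half_pos (norm_pos_iff.2 ht)
      have h2 : ∀ᶠ u in 𝓝 z, ‖X.ev z t‖ / 2 < ‖X.ev u t‖ :=
        (X.continuous_ev t).norm.continuousAt.eventually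
          (lt_mem_nhds (half_lt_self (norm_pos_iff.2 ht)))
      refine ⟨(C / (‖X.ev z t‖ / 2) ^ 2) ^ (1 / a i), by positivity, ?_⟩
      filter_upwards [h2, hzS] with u hu huS
      rw [if_pos hi]
      have h3 := hb u huS
      rw [map_mul, norm_mul, mul_pow] at h3
      exact jb_root hi hC hδ hu.le (norm_nonneg _) (hE u) h3
    · refine ⟨1, one_pos, Eventually.of_forall fun u => ?_⟩
      rw [if_neg hi, one_mul]
      exact hE u
  choose C hC hb using h1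
  refine h.of_le hc (C := ∑ i, C i + 1)
    (add_pos_of_nonneg_of_pos (Finset.sum_nonneg fun i _ => (hC i).le) one_pos) ?_
  filter_upwards [eventually_all.2 hb] with u hu
  have h4 : X.EE s a u ≤ ∑ i, C i * X.EE G w u := Finset.sum_le_sum fun i _ => hu i
  rw [← Finset.sum_mul] at h4
  rw [add_mul, one_mul]
  exact h4.trans (le_add_of_nonneg_right (hE u))

theorem Aff.one_le_level {K : ℕ} {A₀ : ℝ} {P : Dat (Vk X.x) K A₀} {z : Ω} {c : ℝ} (h : X.Ok P z c)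
    {i : P.ι} (hi : 0 < P.a i) : 1 ≤ P.κ i := by
  by_contra hk
  have hk0 : P.κ i = 0 := by omega
  have hm := P.fb.mem i
  rw [hk0, Vk_zero, Submodule.mem_span_singleton] at hm
  obtain ⟨b, hb⟩ := hm
  have hne : P.s i ≠ 0 := P.fb.li.ne_zero i
  have hb0 : b ≠ 0 := by
    rintro rfl
    exact hne (by rw [← hb, zero_smul])
  have h1 : X.EE P.s P.a z ≤ 0 :=
    (h.2 (c + 1) (lt_add_one c)).nonpos (X.continuous_EE P.s P.a).continuousAt
  have h2 : X.EE P.s P.a z = 0 := le_antisymm h1 (wE_nonneg (X.fam P.s) P.a z)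
  have h3 : ‖X.ev z (P.s i)‖ ^ 2 ≤ X.EE P.s P.a z ^ P.a i := sq_le_wE (X.fam P.s) P.a z hi
  rw [h2, Real.zero_rpow hi.ne', ← hb, map_smul, map_one, smul_eq_mul, mul_one] at h3
  exact absurd h3 (not_le.2 (pow_pos (norm_pos_iff.2 hb0) 2))

end Vale.Agent.P271
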