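import Vale.Agent.P271.M.JB

/-! P271 M/MI: multiplier ideals in the coordinate ring.

Plan. The functions are continuous, so measurable; `|g + g'| ^ 2 ≤ 2 |g| ^ 2 + 2 |g'| ^ 2`; `ev · r` is
bounded on a compact neighbourhood. `mi_anti`: `E ≤ B` near `x` gives
`E ^ (-γ) ≤ B ^ (γ' - γ) E ^ (-γ')`. `mi_stab`: `monotone_stabilizes_iff_noetherian` for
`k ↦ mi (c + 1 / (k + 1))` (`Aff.noeth`). `mi_loc`: finitely many generators, integrable on a common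
open `N`; the ideal `mi s a z γ` contains them for `z ∈ N`. `pow_mem_mi`: `γ ≤ k a i`;
`|s i| ^ (2 k) E ^ (-γ) ≤ E ^ (k a i - γ)` if `E > 0` (`sq_le_wE`), and `s i = 0` if `E = 0`.
`not_ni_of_mi`: `|g| ≥ δ` near `z`. Auxiliary names start with `mi_` followed by a digit. -/

open MeasureTheory Set Filter Topology
open scoped ContDiff ENNReal ComplexConjugate

noncomputable section

namespace Vale.Agent.P271

section
variable {Ω : Type} [TopologicalSpace Ω] [MeasurableSpace Ω] [BorelSpace Ω] {ν : Measure Ω} {x : Ω}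
  {f g : Ω → ℝ≥0∞}

theorem mi_1 (h : ∃ N ∈ 𝓝 x, ∫⁻ w in N, f w ∂ν ≠ ⊤) {C : ℝ≥0∞} (hC : C ≠ ⊤)
    (hle : ∀ᶠ w in 𝓝 x, g w ≤ C * f w) : ∃ N ∈ 𝓝 x, ∫⁻ w in N, g w ∂ν ≠ ⊤ := by
  obtain ⟨N, hN, h⟩ := h
  obtain ⟨U, hU, ho, hz⟩ := mem_nhds_iff.1 (inter_mem hN hle)
  refine ⟨U, ho.mem_nhds hz, ne_top_of_le_ne_top ?_
    (setLIntegral_mono' ho.measurableSet fun w hw => (hU hw).2)⟩
  rw [lintegral_const_mul' _ _ hC]
  exact ENNReal.mul_ne_top hC (ne_top_of_le_ne_top h (lintegral_mono_set fun w hw => (hU hw).1))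

omit [BorelSpace Ω] in
theorem mi_2 (hf : Measurable f) (h : ∃ N ∈ 𝓝 x, ∫⁻ w in N, f w ∂ν ≠ ⊤)
    (h' : ∃ N ∈ 𝓝 x, ∫⁻ w in N, g w ∂ν ≠ ⊤) : ∃ N ∈ 𝓝 x, ∫⁻ w in N, f w + g w ∂ν ≠ ⊤ := by
  obtain ⟨N, hN, h⟩ := h
  obtain ⟨N', hN', h'⟩ := h'
  refine ⟨N ∩ N', inter_mem hN hN', ?_⟩
  rw [lintegral_add_left hf]
  exact ENNReal.add_ne_top.2 ⟨ne_top_of_le_ne_top h (lintegral_mono_set inter_subset_left),
    ne_top_of_le_ne_top h' (lintegral_mono_set inter_subset_right)⟩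

theorem mi_3 {e b : ℝ≥0∞} (he : e ≠ ⊤) (hb : b ≠ 0) (hb' : b ≠ ⊤) (h : e ≤ b) {γ γ' : ℝ}
    (h0 : 0 ≤ γ) (hγ : γ ≤ γ') : e ^ (-γ) ≤ b ^ (γ' - γ) * e ^ (-γ') := by
  by_cases hg : e = 0
  · rcases (h0.trans hγ).eq_or_lt with h1 | h1
    · obtain rfl : γ = γ' := le_antisymm hγ (h1 ▸ h0)
      rw [sub_self, ENNReal.rpow_zero, one_mul]
    · rw [hg, ENNReal.zero_rpow_of_neg (neg_lt_zero.2 h1), ENNReal.mul_top
        (ENNReal.rpow_pos (pos_iff_ne_zero.2 hb) hb').ne']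
      exact le_top
  · rw [show -γ = γ' - γ + -γ' by ring, ENNReal.rpow_add _ _ hg he]
    exact mul_le_mul_left (ENNReal.rpow_le_rpow h (sub_nonneg.2 hγ)) _

omit [MeasurableSpace Ω] [BorelSpace Ω] in
theorem mi_4 {u : Ω → ℝ} (hu : Continuous u) (x : Ω) : ∀ᶠ w in 𝓝 x,
    ENNReal.ofReal (u w) ≤ ENNReal.ofReal (|u x| + 1) :=
  (hu.continuousAt.eventually_lt continuousAt_const
    ((le_abs_self _).trans_lt (lt_add_one _))).mono fun _ hw => ENNReal.ofReal_le_ofReal hw.le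

end

variable {n M : ℕ} {A Ω : Type} [CommRing A] [IsDomain A] [Algebra ℂ A] [TopologicalSpace Ω]
  [T2Space Ω] [SecondCountableTopology Ω] [MeasurableSpace Ω] [BorelSpace Ω] (X : Aff n M A Ω)

variable {ι : Type} [Fintype ι] (s : ι → A) (a : ι → ℝ) (x : Ω)

/-- The multiplier ideal at `x`. -/
def Aff.mi (γ : ℝ) : Ideal A where
  carrier := {g | ∃ N ∈ 𝓝 x, ∫⁻ w in N,
    ENNReal.ofReal (‖X.ev w g‖ ^ 2) * ENNReal.ofReal (X.EE s a w) ^ (-γ) ∂X.ν ≠ ⊤}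
  add_mem' := fun {g g'} hg hg' => by
    have hm : Measurable fun w =>
        ENNReal.ofReal (‖X.ev w g‖ ^ 2) * ENNReal.ofReal (X.EE s a w) ^ (-γ) :=
      ((X.continuous_ev g).norm.pow 2).measurable.ennreal_ofReal.mul
        ((X.continuous_EE s a).measurable.ennreal_ofReal.pow_const _)
    refine mi_1 (mi_2 hm hg hg')
      (C := ENNReal.ofReal 2) ENNReal.ofReal_ne_top (Eventually.of_forall fun w => ?_)
    rw [← add_mul, ← mul_assoc, ← ENNReal.ofReal_add (by positivity) (by positivity),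
      ← ENNReal.ofReal_mul zero_le_two, map_add]
    refine mul_le_mul_left (ENNReal.ofReal_le_ofReal ?_) _
    refine (pow_le_pow_left₀ (norm_nonneg _) (norm_add_le _ _) 2).trans ?_
    nlinarith [sq_nonneg (‖X.ev w g‖ - ‖X.ev w g'‖)]
  zero_mem' := ⟨univ, univ_mem, by simp⟩
  smul_mem' := fun r g hg => by
    refine mi_1 hg (C := ENNReal.ofReal (|‖X.ev x r‖ ^ 2| + 1)) ENNReal.ofReal_ne_top
      ((mi_4 ((X.continuous_ev r).norm.pow 2) x).mono fun w hw => ?_)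
    rw [smul_eq_mul, map_mul, norm_mul, mul_pow, ENNReal.ofReal_mul (by positivity), mul_assoc]
    exact mul_le_mul_left hw _

theorem Aff.mem_mi {γ : ℝ} {g : A} : g ∈ X.mi s a x γ ↔ ∃ N ∈ 𝓝 x, ∫⁻ w in N,
    ENNReal.ofReal (‖X.ev w g‖ ^ 2) * ENNReal.ofReal (X.EE s a w) ^ (-γ) ∂X.ν ≠ ⊤ := Iff.rfl

theorem Aff.mi_anti {γ γ' : ℝ} (h0 : 0 ≤ γ) (h : γ ≤ γ') : X.mi s a x γ' ≤ X.mi s a x γ :=
  fun g hg => by
  refine mi_1 hg (C := ENNReal.ofReal (|X.EE s a x| + 1) ^ (γ' - γ))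
    (ENNReal.rpow_ne_top_of_nonneg (sub_nonneg.2 h) ENNReal.ofReal_ne_top)
    ((mi_4 (X.continuous_EE s a) x).mono fun w hw => ?_)
  rw [mul_left_comm]
  exact mul_le_mul_right (mi_3 ENNReal.ofReal_ne_top (ENNReal.ofReal_pos.2 (by positivity)).ne'
    ENNReal.ofReal_ne_top hw h0 h) _

theorem Aff.mi_stab {c : ℝ} (hc : 0 ≤ c) :
    ∃ c' > c, ∀ γ, c < γ → γ ≤ c' → X.mi s a x γ = X.mi s a x c' := by
  have := X.noeth
  obtain ⟨k, hk⟩ := (monotone_stabilizes_iff_noetherian (R := A) (M := A)).2 inferInstance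
    ⟨fun k : ℕ => X.mi s a x (c + 1 / (k + 1)), fun k l hkl => X.mi_anti s a x (by positivity)
      (add_le_add_right (Nat.one_div_le_one_div hkl) c)⟩
  refine ⟨c + 1 / (k + 1), lt_add_of_pos_right _ (by positivity), fun γ h1 h2 =>
    le_antisymm ?_ (X.mi_anti s a x (hc.trans h1.le) h2)⟩
  obtain ⟨l, hl⟩ := exists_nat_one_div_lt (sub_pos.2 h1)
  have h3 := Nat.one_div_le_one_div (α := ℝ) (le_max_right k l)
  exact (X.mi_anti s a x (by positivity) (by linarith)).trans (hk _ (le_max_left k l)).ge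

theorem Aff.mi_loc (γ : ℝ) : ∀ᶠ z in 𝓝 x, X.mi s a x γ ≤ X.mi s a z γ := by
  have := X.noeth
  obtain ⟨S, hS⟩ := IsNoetherian.noetherian (X.mi s a x γ)
  have h : ∀ g ∈ S, ∀ᶠ z in 𝓝 x, g ∈ X.mi s a z γ := fun g hg => by
    obtain ⟨N, hN, h⟩ : g ∈ X.mi s a x γ := hS ▸ Submodule.subset_span hg
    exact (eventually_mem_nhds_iff.2 hN).mono fun z hz => ⟨N, hz, h⟩
  filter_upwards [(eventually_all_finset S).2 h] with z hz
  rw [← hS]
  exact Submodule.span_le.2 hz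

theorem Aff.pow_mem_mi {γ : ℝ} (hγ : 0 ≤ γ) {i : ι} (hi : 0 < a i) :
    ∃ k : ℕ, s i ^ k ∈ X.mi s a x γ := by
  have := X.toEtDom.locallyCompact
  have := X.toEtDom.finiteOnCompacts
  obtain ⟨k, hk⟩ := exists_nat_gt (γ / a i)
  rw [div_lt_iff₀' hi] at hk
  obtain ⟨V, hzV, hV, hν⟩ := X.ν.exists_isOpen_measure_lt_top x
  refine ⟨k, mi_1 (f := fun _ => 1) ⟨V, hV.mem_nhds hzV, by simpa using hν.ne⟩
    (C := ENNReal.ofReal (|X.EE s a x| + 1) ^ (a i * k - γ))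
    (ENNReal.rpow_ne_top_of_nonneg (sub_nonneg.2 hk.le) ENNReal.ofReal_ne_top)
    ((mi_4 (X.continuous_EE s a) x).mono fun w hw => ?_)⟩
  have h0 : 0 ≤ X.EE s a w := wE_nonneg _ _ _
  have h1 : ENNReal.ofReal (‖X.ev w (s i ^ k)‖ ^ 2) ≤ ENNReal.ofReal (X.EE s a w) ^ (a i * k) := by
    rw [ENNReal.ofReal_rpow_of_nonneg h0 (by positivity), map_pow, norm_pow, ← pow_mul, mul_comm,
      pow_mul, Real.rpow_mul_natCast h0]
    exact ENNReal.ofReal_le_ofReal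
      (pow_le_pow_left₀ (by positivity) (sq_le_wE (X.fam s) a w hi) k)
  refine (mul_le_mul_left h1 _).trans ?_
  by_cases hg : ENNReal.ofReal (X.EE s a w) = 0
  · rw [hg, ENNReal.zero_rpow_of_pos (hγ.trans_lt hk), zero_mul]
    exact zero_le
  · rw [← ENNReal.rpow_add _ _ hg ENNReal.ofReal_ne_top, mul_one, ← sub_eq_add_neg]
    exact ENNReal.rpow_le_rpow hw (sub_nonneg.2 hk.le)

theorem Aff.not_ni_of_mi {γ : ℝ} {g : A} (hg : g ∈ X.mi s a x γ) (h0 : X.ev x g ≠ 0) :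
    ¬X.toEtDom.NI (X.EE s a) x γ := fun h => by
  have h1 : 0 < ‖X.ev x g‖ ^ 2 := pow_pos (norm_pos_iff.2 h0) 2
  have h2 : ENNReal.ofReal (‖X.ev x g‖ ^ 2 / 2) ≠ 0 := (ENNReal.ofReal_pos.2 (half_pos h1)).ne'
  obtain ⟨N, hN, h3⟩ := mi_1 hg (g := fun w => ENNReal.ofReal (X.EE s a w) ^ (-γ))
    (ENNReal.inv_ne_top.2 h2) ((continuousAt_const.eventually_lt
      ((X.continuous_ev g).norm.pow 2).continuousAt (half_lt_self h1)).mono fun w hw => by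
      refine le_trans (le_of_eq ?_)
        (mul_le_mul_right (mul_le_mul_left (ENNReal.ofReal_le_ofReal hw.le) _) _)
      rw [← mul_assoc, Pi.pow_apply, ENNReal.inv_mul_cancel h2 ENNReal.ofReal_ne_top, one_mul])
  exact h3 (h N hN)

end Vale.Agent.P271
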