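import Vale.Agent.P271.M.SecB
import Vale.Agent.P271.M.JB
import Vale.Agent.P271.A.Stein

/-! P271 M/Sec: the last step on the affine variety.

Plan. `secP_le_nrm`: `|s i| ^ 2 ≤ C nrm ^ κ i` (`norm_le_of_mem_Vk`), `nrm ≥ 1`, so each term is at most
`(1 + C exp (a i T)) ^ (1 / κ i) * nrm`. `pi_le_nrm`: `σ` is injective (`tb`), or bound by
`(n + 1) * nrm` termwise. `section`: `exists_section` with `stein_univ`; then
`secφ ≤ θ log nrm - θ log |u| ^ 2 + C` (`sp_le`, `log secP ≥ 0`), so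
`(|u| ^ 2 / nrm) ^ θ ≤ exp C * exp (-secφ)`. Auxiliary names start with `sec1_`. -/

open MeasureTheory Set Filter Topology
open scoped ContDiff ENNReal ComplexConjugate

noncomputable section

namespace Vale.Agent.P271

variable {n M : ℕ} {A Ω : Type} [CommRing A] [IsDomain A] [Algebra ℂ A] [TopologicalSpace Ω]
  [T2Space Ω] [SecondCountableTopology Ω] [MeasurableSpace Ω] [BorelSpace Ω] (X : Aff n M A Ω)

omit [IsDomain A] [T2Space Ω] [SecondCountableTopology Ω] [BorelSpace Ω] in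
theorem Aff.one_le_nrm (z : Ω) : 1 ≤ X.nrm z :=
  le_add_of_nonneg_right (Finset.sum_nonneg fun _ _ => sq_nonneg _)

omit [IsDomain A] [T2Space Ω] [SecondCountableTopology Ω] [BorelSpace Ω] in
theorem Aff.pi_le_nrm (z : Ω) : 1 + ∑ j, ‖X.π z j‖ ^ 2 ≤ (n + 1) * X.nrm z := by
  have h : ∑ j, ‖X.π z j‖ ^ 2 ≤ ∑ _j : Fin n, X.nrm z := Finset.sum_le_sum fun j _ => by
    rw [X.π_eq]
    exact (Finset.single_le_sum (f := fun i => ‖X.ev z (X.x i)‖ ^ 2) (fun _ _ => sq_nonneg _)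
      (Finset.mem_univ _)).trans (le_add_of_nonneg_left zero_le_one)
  rw [Finset.sum_const, Finset.card_univ, Fintype.card_fin, nsmul_eq_mul] at h
  linarith [X.one_le_nrm z]

omit [IsDomain A] [T2Space Ω] [SecondCountableTopology Ω] [BorelSpace Ω] in
theorem Aff.secP_le_nrm {ι : Type} [Fintype ι] {s : ι → A} {a : ι → ℝ} {κ : ι → ℕ}
    (hs : ∀ i, s i ∈ Vk X.x (κ i)) (hκ : ∀ i, 0 < a i → 1 ≤ κ i) (T : ℝ) :
    ∃ C : ℝ, 1 ≤ C ∧ ∀ z, secP (X.fam s) a κ T z ≤ C * X.nrm z := by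
  choose C hC h using fun i => norm_le_of_mem_Vk X.x (hs i)
  have h0 : ∀ i, 0 ≤ (1 + C i * Real.exp (a i * T)) ^ (1 / κ i : ℝ) := fun i => by
    have := hC i
    positivity
  refine ⟨1 + ∑ i, (1 + C i * Real.exp (a i * T)) ^ (1 / κ i : ℝ),
    le_add_of_nonneg_right (Finset.sum_nonneg fun i _ => h0 i), fun z => ?_⟩
  have h1 := X.one_le_nrm z
  rw [secP, add_mul, one_mul, Finset.sum_mul]
  refine add_le_add h1 (Finset.sum_le_sum fun i _ => ?_)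
  split_ifs with hi
  · have h2 : ‖X.fam s i z‖ ^ 2 ≤ C i * X.nrm z ^ κ i := h i (X.ev z)
    have h3 : 1 + ‖X.fam s i z‖ ^ 2 * Real.exp (a i * T) ≤
        (1 + C i * Real.exp (a i * T)) * X.nrm z ^ κ i := by
      nlinarith [one_le_pow₀ (n := κ i) h1, Real.exp_pos (a i * T)]
    have := hC i
    refine (Real.rpow_le_rpow (by positivity) h3 (by positivity)).trans_eq ?_
    rw [Real.mul_rpow (by positivity) (by positivity), one_div,
      Real.pow_rpow_inv_natCast (by positivity) (Nat.one_le_iff_ne_zero.1 (hκ i hi))]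
  · exact mul_nonneg (h0 i) (by positivity)

theorem Aff.section {K : ℕ} {A₀ : ℝ} {P : Dat (Vk X.x) K A₀} {u : Ω → ℂ}
    (hu : ∀ w, X.toEtDom.HolAt u w ∧ u w ≠ 0) {x : Ω} {c c' t₁ θ M₀ : ℝ} (ok : X.Ok P x c)
    (hcc : c < c') (iso : ∀ᶠ z in 𝓝[≠] x, ¬X.toEtDom.NI (X.EE P.s P.a) z c') (ht₁ : 0 ≤ t₁)
    (ht : t₁ < θ) (hM : 0 < M₀)
    (shift : ∀ m ∈ Ioc 0 M₀, ∃ N ∈ 𝓝 x, ∃ C : ℝ, ∀ T, 0 ≤ T →
      X.ν (N ∩ {w | X.EE P.s (fun i => P.a i - m * P.κ i) w ≤ Real.exp (-T)}) ≤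
        ENNReal.ofReal (C * Real.exp (-((c - t₁ * m) * T)))) :
    ∃ f : Ω → ℂ, (∀ z, X.toEtDom.HolAt f z) ∧ f x ≠ 0 ∧
      ∫⁻ z, ENNReal.ofReal (‖f z‖ ^ 2 * (‖u z‖ ^ 2 / X.nrm z) ^ θ) ∂X.ν ≠ ⊤ := by
  have hκ : ∀ i, 0 < P.a i → 1 ≤ P.κ i := fun i hi => X.one_le_level ok hi
  obtain ⟨F, t, e, m, T, t0, e0, hθ, mT, hF, hx, hI⟩ := EtDom.exists_section X.stein_univ
    (X.hol_fam P.s) hκ hu ok.1 ok.2 hcc iso ht₁ ht hM shift
  obtain ⟨C, C1, hC⟩ := X.secP_le_nrm P.fb.mem hκ T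
  refine ⟨F, hF, hx, ne_top_of_le_ne_top (ENNReal.mul_ne_top (ENNReal.ofReal_ne_top (r := Real.exp
    (t * Real.log C + e * (Real.log C + 1) + e * Real.log (n + 1)))) hI) ?_⟩
  rw [← lintegral_const_mul' _ _ ENNReal.ofReal_ne_top]
  refine lintegral_mono fun z => ?_
  rw [← ENNReal.ofReal_mul (Real.exp_pos _).le, mul_left_comm, ← Real.exp_add]
  refine ENNReal.ofReal_le_ofReal (mul_le_mul_of_nonneg_left ?_ (sq_nonneg _))
  have h1 := X.one_le_nrm z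
  have h2 : 0 < ‖u z‖ ^ 2 := pow_pos (norm_pos_iff.2 (hu z).2) 2
  have h3 := one_le_secP (X.fam P.s) P.a P.κ T z
  have k1 := Real.log_le_log (by positivity) (hC z)
  have k2 := Real.log_le_log (by positivity) (X.pi_le_nrm z)
  have k3 := (sp_le (Real.log (secP (X.fam P.s) P.a P.κ T z) - m * T)).trans
    (add_le_add_left (max_le (sub_le_self _ mT) (Real.log_nonneg h3)) 1)
  rw [Real.log_mul (by positivity) (by positivity)] at k1 k2
  rw [Real.rpow_def_of_pos (by positivity), Real.exp_le_exp, Real.log_div h2.ne' (by positivity),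
    EtDom.secφ, ← hθ]
  nlinarith [mul_le_mul_of_nonneg_left k1 t0, mul_le_mul_of_nonneg_left k1 e0,
    mul_le_mul_of_nonneg_left k2 e0, mul_le_mul_of_nonneg_left k3 e0]

end Vale.Agent.P271
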