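import Vale.Agent.P271.M.NadA
import Vale.Agent.P271.M.MI
import Vale.Agent.P271.M.Sec
import Vale.Agent.P271.A.GAGA
import Vale.Agent.P271.A.Krull

/-! P271 M/Nad: the zero set of the multiplier ideal.

Plan. `wP_le_nrm`: `exists_mem_Vk`, `norm_le_of_mem_Vk`, `one_le_nrm`. `nad`: take `F` from `nadel`.
The family `π · j - π z j` is `X.fam` of `x (σ j) - algebraMap (π z j)` (`π_eq`); by `wP_le_nrm` twice
and `pi_le_nrm`, `1 / nrm ^ q ≤ C *` the weight in `nadel`, so `gaga` gives `F b = a₀`, `b ≠ 0`. `krull`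
at `z` gives `t, g` with `ev z t ≠ 0`, `t a₀ = g b`, `ev z g = ev z t`. Then `F * ev t = ev g` where
`ev b ≠ 0`, hence everywhere (`dense_ne`, `Continuous.ext_on`), and `ev · t` is bounded near `x`.
Auxiliary names start with `nad1_`. -/

open MeasureTheory Set Filter Topology
open scoped ContDiff ENNReal ComplexConjugate

noncomputable section

namespace Vale.Agent.P271

variable {n M : ℕ} {A Ω : Type} [CommRing A] [IsDomain A] [Algebra ℂ A] [TopologicalSpace Ω]
  [T2Space Ω] [SecondCountableTopology Ω] [MeasurableSpace Ω] [BorelSpace Ω] (X : Aff n M A Ω)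

theorem Aff.wP_le_nrm {ι : Type} [Fintype ι] (s : ι → A) (a : ι → ℝ) :
    ∃ C q : ℝ, 0 < C ∧ 0 ≤ q ∧ ∀ z, wP (X.fam s) a 0 z ≤ C * X.nrm z ^ q := by
  choose k hk using fun i => exists_mem_Vk X.x X.gen (s i)
  choose C hC h using fun i => norm_le_of_mem_Vk X.x (hk i)
  have h0 : ∀ i, 0 ≤ (C i + 1) ^ (1 / a i) := fun i => Real.rpow_nonneg (by linarith [hC i]) _
  refine ⟨1 + ∑ i, (C i + 1) ^ (1 / a i), ∑ i, |k i * (1 / a i)|,
    add_pos_of_pos_of_nonneg one_pos (Finset.sum_nonneg fun i _ => h0 i), by positivity,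
    fun z => ?_⟩
  have h1 := X.one_le_nrm z
  rw [wP, add_mul, Finset.sum_mul, neg_zero, Real.exp_zero, one_mul]
  refine add_le_add (Real.one_le_rpow h1 (by positivity)) (Finset.sum_le_sum fun i _ => ?_)
  split_ifs with hi
  · have h2 : ‖X.fam s i z‖ ^ 2 ≤ C i * X.nrm z ^ k i := h i (X.ev z)
    have h3 : 1 ≤ X.nrm z ^ k i := one_le_pow₀ h1
    rw [mul_zero, neg_zero, Real.exp_zero]
    refine (Real.rpow_le_rpow (by positivity) (show _ ≤ (C i + 1) * X.nrm z ^ k i by linarith)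
      (by positivity)).trans ?_
    rw [Real.mul_rpow (by linarith [hC i]) (by positivity), ← Real.rpow_natCast,
      ← Real.rpow_mul (by positivity)]
    exact mul_le_mul_of_nonneg_left (Real.rpow_le_rpow_of_exponent_le h1 ((le_abs_self _).trans
      (Finset.single_le_sum (f := fun i => |k i * (1 / a i)|) (fun _ _ => abs_nonneg _)
        (Finset.mem_univ i)))) (h0 i)
  · exact mul_nonneg (h0 i) (by positivity)

theorem Aff.nad {ι : Type} [Fintype ι] (s : ι → A) (a : ι → ℝ) {c : ℝ} (hc : 0 < c) {z x : Ω}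
    (hzx : z ≠ x) (h : ¬X.toEtDom.NI (X.EE s a) z c) :
    ∃ g ∈ X.mi s a x c, X.ev z g ≠ 0 := by
  obtain ⟨F, hF, hF1, hF2, hF3⟩ := EtDom.nadel X.stein_univ (X.hol_fam s) hc hzx h
  obtain ⟨C₁, q₁, hC₁, hq₁, h1⟩ := X.wP_le_nrm s a
  obtain ⟨C₂, q₂, hC₂, hq₂, h2⟩ :=
    X.wP_le_nrm (fun j => X.x (X.σ j) - algebraMap ℂ A (X.π z j)) fun _ => 1
  have h3 : X.fam (fun j => X.x (X.σ j) - algebraMap ℂ A (X.π z j)) =
      fun j w => X.π w j - X.π z j := by
    funext j w
    simp [Aff.fam, X.π_eq w j]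
  rw [h3] at h2
  obtain ⟨a₀, b, hb, hab⟩ := X.gaga hF (q := q₁ * c + q₂ * (n + 1) + 1) (by
    refine ne_top_of_le_ne_top (ENNReal.mul_ne_top (ENNReal.ofReal_ne_top
      (r := C₁ ^ c * C₂ ^ (n + 1 : ℝ) * (n + 1))) hF3) ?_
    rw [← lintegral_const_mul' _ _ ENNReal.ofReal_ne_top]
    refine lintegral_mono fun w => ?_
    rw [← ENNReal.ofReal_mul (by positivity)]
    refine ENNReal.ofReal_le_ofReal ?_
    have h0 := one_pos.trans_le (X.one_le_nrm w)
    have p1 := wP_pos (X.fam s) a w 0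
    have p2 := wP_pos (fun j w => X.π w j - X.π z j) (fun _ => 1) w 0
    have h4 := mul_le_mul (mul_le_mul (Real.rpow_le_rpow p1.le (h1 w) hc.le)
      (Real.rpow_le_rpow p2.le (h2 w) (show (0 : ℝ) ≤ n + 1 by positivity)) (by positivity)
      (by positivity)) (X.pi_le_nrm w) (by positivity) (by positivity)
    rw [Real.mul_rpow hC₁.le (by positivity), Real.mul_rpow hC₂.le (by positivity),
      ← Real.rpow_mul h0.le, ← Real.rpow_mul h0.le] at h4
    rw [Real.rpow_neg p1.le, Real.rpow_neg p2.le, ← mul_inv, ← mul_inv, mul_left_comm,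
      div_eq_mul_inv, Real.rpow_add h0, Real.rpow_add h0, Real.rpow_one]
    refine mul_le_mul_of_nonneg_left ?_ (sq_nonneg _)
    rw [← div_eq_mul_inv, le_div_iff₀ (by positivity), inv_mul_le_iff₀ (by positivity)]
    linarith)
  obtain ⟨t, g, ht, htg, hg⟩ := X.krull (hF z) hb (Eventually.of_forall hab)
  have h4 : (fun w => F w * X.ev w t) = fun w => X.ev w g :=
    Continuous.ext_on (X.dense_ne hb) ((continuous_iff_continuousAt.2 fun w =>
      (hF w).smAt.continuousAt).mul (X.continuous_ev t)) (X.continuous_ev g) fun w hw => by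
      have h5 := congrArg (X.ev w) htg
      rw [map_mul, map_mul, ← hab w] at h5
      exact mul_right_cancel₀ hw (by linear_combination h5)
  refine ⟨g, mi_1 hF2 (C := ENNReal.ofReal (|‖X.ev x t‖ ^ 2| + 1)) ENNReal.ofReal_ne_top
    ((mi_4 ((X.continuous_ev t).norm.pow 2) x).mono fun w hw => ?_), ?_⟩
  · rw [← congrFun h4 w, mul_comm (F w), norm_mul, mul_pow, ENNReal.ofReal_mul (by positivity),
      mul_assoc]
    exact mul_le_mul_left hw _
  · rwa [← congrFun h4 z, hF1, one_mul]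

end Vale.Agent.P271
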