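import Vale.Agent.P271.G.Reg
import Vale.Agent.P271.H.Horm
import Vale.Agent.P271.H.Nbhd

/-! P271 M/NadA: a holomorphic function in the multiplier ideal, nonzero at a given point.

Plan. `p j w = π w j - π z j`. Take an open `U ∋ z` with finite integral of `wE ^ (-c)`, a cutoff `ζ`
supported in `U`, in the source of `ch z` and away from `x` (so `ζ = 0` near `x`). Weights
`φ S = c log (wP s a S) + (n + 1) log (wP p 1 S) + log (1 + ∑ |π j| ^ 2)` (`psh_log_wP`, `psh_log_sq`,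
`wP_anti`), `M` the constant of `cutoff_bound` on the compact set `Y = tsupport ζ \ interior {ζ = 1}`
and zero elsewhere. On `Y`, `∑ |p j| ^ 2 ≥ δ > 0` (`π` is injective on the source), and
`wP s a S ≥ wE`, so the integrals are bounded by `A ≠ ⊤`. `hormander` gives `F`; `force` for the family
`p` (`ni_pole`, `wE_one`) with `f = |ζ - F| ^ 2 * wP s a 0 ^ (-c) / (1 + ∑ |π j| ^ 2)` gives `F z = 1`.
Near `x`: on an open `N` with compact closure where `ζ = 0`, the other two factors are bounded below;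
`lint_limit`. The last claim is the case `S = 0` with `|F| ^ 2 ≤ 2 |ζ| ^ 2 + 2 |ζ - F| ^ 2`.
Auxiliary names start with `nada_`. -/

open MeasureTheory Set Filter Topology
open scoped ContDiff ENNReal ComplexConjugate

noncomputable section

namespace Vale.Agent.P271

namespace EtDom

variable {n : ℕ} {Ω : Type} [TopologicalSpace Ω] [T2Space Ω] [SecondCountableTopology Ω]
  [MeasurableSpace Ω] [BorelSpace Ω] {D : EtDom n Ω}

theorem nadel (hSt : D.Stein univ) {ι : Type} [Fintype ι] {s : ι → Ω → ℂ} {a : ι → ℝ}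
    (hs : ∀ i w, D.HolAt (s i) w) {c : ℝ} (hc : 0 < c) {z x : Ω} (hzx : z ≠ x)
    (h : ¬D.NI (wE s a) z c) :
    ∃ F : Ω → ℂ, (∀ w, D.HolAt F w) ∧ F z = 1 ∧
      (∃ N ∈ 𝓝 x, ∫⁻ w in N,
        ENNReal.ofReal (‖F w‖ ^ 2) * ENNReal.ofReal (wE s a w) ^ (-c) ∂D.ν ≠ ⊤) ∧
      ∫⁻ w, ENNReal.ofReal (‖F w‖ ^ 2 * (wP s a 0 w ^ (-c) *
        wP (fun j w => D.π w j - D.π z j) (fun _ => 1) 0 w ^ (-(n + 1 : ℝ)) *
        (1 + ∑ j, ‖D.π w j‖ ^ 2)⁻¹)) ∂D.ν ≠ ⊤ := by
  classical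
  have := D.finiteOnCompacts
  have := D.locallyCompact
  simp only [NI, not_forall] at h
  obtain ⟨U, hU, hUI⟩ := h
  obtain ⟨V₁, V₂, hV₁, hV₂, hz1, hx2, hdis⟩ := t2_separation hzx
  obtain ⟨ζ, hζ, hsupp, -, hζz⟩ := D.exists_cutoff (inter_mem (inter_mem hU (hV₁.mem_nhds hz1))
    ((D.ch z).open_source.mem_nhds (D.mem z)))
  obtain ⟨B, hB, hB'⟩ := cutoff_bound hζ
  set p : Fin n → Ω → ℂ := fun j w => D.π w j - D.π z j with hp
  have hph : ∀ j w, D.HolAt (p j) w := fun j w => (holAt_π j).sub (holAt_const _)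
  have cs : ∀ i, Continuous (s i) := fun i =>
    continuous_iff_continuousAt.2 fun w => (hs i w).smAt.continuousAt
  have cp : ∀ j, Continuous (p j) := fun j =>
    continuous_iff_continuousAt.2 fun w => (hph j w).smAt.continuousAt
  have cζ : Continuous ζ := continuous_iff_continuousAt.2 fun w => (hζ.1 w).continuousAt
  have q0 : ∀ w, 0 < 1 + ∑ j, ‖D.π w j‖ ^ 2 := fun w =>
    add_pos_of_pos_of_nonneg one_pos (Finset.sum_nonneg fun _ _ => sq_nonneg _)
  have n0 : (0 : ℝ) < n + 1 := by positivity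
  set φ : ℕ → Ω → ℝ := fun S w => c * Real.log (wP s a S w) +
    (n + 1) * Real.log (wP p (fun _ => 1) S w) + Real.log (1 + ∑ j, ‖D.π w j‖ ^ 2) with hφ
  have ex : ∀ S w, Real.exp (-φ S w) = wP s a S w ^ (-c) * wP p (fun _ => 1) S w ^ (-(n + 1 : ℝ)) *
      (1 + ∑ j, ‖D.π w j‖ ^ 2)⁻¹ := fun S w => by
    rw [Real.rpow_def_of_pos (wP_pos _ _ _ _), Real.rpow_def_of_pos (wP_pos _ _ _ _),
      ← Real.exp_log (inv_pos.2 (q0 w)), Real.log_inv, ← Real.exp_add, ← Real.exp_add]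
    congr 1
    ring
  have p1 : ∀ S w, D.Psh (fun w => c * Real.log (wP s a S w) +
      (n + 1) * Real.log (wP p (fun _ => 1) S w)) w := fun S w =>
    ((psh_log_wP (hs · w) a S).smul hc.le).add ((psh_log_wP (hph · w) _ S).smul n0.le)
  have p2 : ∀ w, D.Psh (fun w => Real.log (1 + ∑ j, ‖D.π w j‖ ^ 2)) w := fun w =>
    psh_log_sq (fun j => holAt_π j) one_pos
  have pφ : ∀ S w, D.Psh (φ S) w := fun S w => (p1 S w).add (p2 w)
  have cφ : ∀ S, Continuous (φ S) := fun S =>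
    continuous_iff_continuousAt.2 fun w => (pφ S w).1.continuousAt
  set Y := tsupport ζ \ interior {w | ζ w = 1} with hY
  have hYc : IsCompact Y := hζ.2.isCompact.diff isOpen_interior
  obtain ⟨δ, hδ, hδY⟩ : ∃ δ > (0 : ℝ), ∀ w ∈ Y, δ ≤ wE p (fun _ => 1) w := by
    refine hYc.exists_forall_le' (continuous_iff_continuousAt.2 fun w =>
      wE_continuousAt p _ w fun j => (cp j).continuousAt).continuousOn fun w hw => ?_
    rw [wE_one]
    refine lt_of_le_of_ne (Finset.sum_nonneg fun _ _ => sq_nonneg _) fun h0 => hw.2 ?_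
    have h1 : D.π w = D.π z := funext fun j => by
      have := (Finset.sum_eq_zero_iff_of_nonneg fun _ _ => sq_nonneg _).1 h0.symm j
        (Finset.mem_univ j)
      simpa [hp, sub_eq_zero] using this
    have h2 : w = z := (D.ch z).injOn (hsupp hw.1).2 (D.mem z) (by rw [D.coe]; exact h1)
    exact h2 ▸ mem_interior_iff_mem_nhds.2 hζz
  have cI : ∀ S, Continuous fun w => ‖ζ w‖ ^ 2 * Real.exp (-φ S w) := fun S =>
    (cζ.norm.pow 2).mul (Real.continuous_exp.comp (cφ S).neg)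
  have hg2 : ∀ S, ∫⁻ w, ENNReal.ofReal (‖ζ w‖ ^ 2 * Real.exp (-φ S w)) ∂D.ν ≠ ⊤ := fun S => by
    refine (Integrable.lintegral_lt_top ((cI S).integrable_of_hasCompactSupport ?_)).ne
    refine hζ.2.mono' fun w hw => subset_tsupport _ fun h => hw ?_
    simp [h]
  set A := ENNReal.ofReal (B * δ ^ (-(n + 1 : ℝ))) *
    ∫⁻ w in U, ENNReal.ofReal (wE s a w) ^ (-c) ∂D.ν with hA
  have hA' : A ≠ ⊤ := ENNReal.mul_ne_top ENNReal.ofReal_ne_top hUI
  obtain ⟨F, hF, hFb⟩ := hormander hSt (g := ζ) (φ := φ) (M := fun _ => Y.indicator fun _ => B)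
    (A := A) (fun w _ => hζ.1 w) (fun S w _ => pφ S w)
    (fun w _ S S' hS => add_le_add (add_le_add
      (mul_le_mul_of_nonneg_left (Real.log_le_log (wP_pos _ _ _ _)
        (wP_anti s a w (Nat.cast_le.2 hS))) hc.le)
      (mul_le_mul_of_nonneg_left (Real.log_le_log (wP_pos _ _ _ _)
        (wP_anti p _ w (Nat.cast_le.2 hS))) n0.le)) le_rfl)
    (fun _ w _ => indicator_nonneg (fun _ _ => hB) w)
    (fun S w _ v => by
      by_cases hw : w ∈ Y
      · rw [indicator_of_mem hw]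
        refine (hB' w v).trans (mul_le_mul_of_nonneg_left ?_ hB)
        rw [hφ, levi_add v (p1 S w).1 (p2 w).1]
        linarith [(p1 S w).2 v]
      · obtain ⟨k, hk⟩ : ∃ k : ℂ, ζ =ᶠ[𝓝 w] fun _ => k := by
          by_cases h1 : w ∈ tsupport ζ
          · exact ⟨1, mem_interior_iff_mem_nhds.1 (by_contra fun h2 => hw ⟨h1, h2⟩)⟩
          · exact ⟨0, notMem_tsupport_iff_eventuallyEq.1 h1⟩
        simp [indicator_of_notMem hw, db_congr _ hk, db_const])
    (fun S => by rw [Measure.restrict_univ]; exact hg2 S)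
    (fun S => by
      rw [Measure.restrict_univ, hA, ← lintegral_const_mul' _ _ ENNReal.ofReal_ne_top]
      refine le_trans (lintegral_mono (g := U.indicator fun w =>
        ENNReal.ofReal (B * δ ^ (-(n + 1 : ℝ))) * ENNReal.ofReal (wE s a w) ^ (-c)) fun w => ?_)
        (lintegral_indicator_le _ _)
      by_cases hw : w ∈ Y
      · rw [indicator_of_mem hw, indicator_of_mem (hsupp hw.1).1.1, ex]
        have e1 : wP p (fun _ => 1) S w ^ (-(n + 1 : ℝ)) ≤ δ ^ (-(n + 1 : ℝ)) :=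
          Real.rpow_le_rpow_of_nonpos hδ ((hδY w hw).trans (wE_le_wP _ _ _ _)) (by linarith)
        have e2 : (1 + ∑ j, ‖D.π w j‖ ^ 2)⁻¹ ≤ 1 := inv_le_one_of_one_le₀
          (le_add_of_nonneg_right (Finset.sum_nonneg fun _ _ => sq_nonneg _))
        have e3 : ENNReal.ofReal (wP s a S w ^ (-c)) ≤ ENNReal.ofReal (wE s a w) ^ (-c) := by
          rw [← ENNReal.ofReal_rpow_of_pos (wP_pos _ _ _ _), ENNReal.rpow_neg, ENNReal.rpow_neg]
          exact ENNReal.inv_le_inv.2 (ENNReal.rpow_le_rpow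
            (ENNReal.ofReal_le_ofReal (wE_le_wP _ _ _ _)) hc.le)
        refine le_trans ?_ (mul_le_mul_right e3 _)
        have e4 := Real.rpow_pos_of_pos (wP_pos s a w S) (-c)
        have e5 := Real.rpow_pos_of_pos (wP_pos p (fun _ => 1) w S) (-(n + 1 : ℝ))
        rw [← ENNReal.ofReal_mul (by positivity)]
        refine ENNReal.ofReal_le_ofReal ?_
        have e6 := mul_le_mul e1 e2 (inv_pos.2 (q0 w)).le (by positivity)
        have e7 := mul_le_mul_of_nonneg_left e6 (mul_nonneg hB e4.le)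
        linarith
      · simp [indicator_of_notMem hw])
    hA'
  simp only [Measure.restrict_univ] at hFb
  have hF' : ∀ w, D.HolAt F w := fun w => hF w (mem_univ w)
  have cF : Continuous F := continuous_iff_continuousAt.2 fun w => (hF' w).smAt.continuousAt
  have h3A : 3 * A ≠ ⊤ := ENNReal.mul_ne_top (by norm_num) hA'
  have c1 : Continuous fun w => wP s a 0 w ^ (-c) := Continuous.rpow_const
    (continuous_iff_continuousAt.2 fun w => wP_continuousAt s a w (fun i => (cs i).continuousAt) 0)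
    fun w => Or.inl (wP_pos _ _ _ _).ne'
  have c2 : Continuous fun w => wP p (fun _ => 1) 0 w ^ (-(n + 1 : ℝ)) := Continuous.rpow_const
    (continuous_iff_continuousAt.2 fun w => wP_continuousAt p _ w (fun i => (cp i).continuousAt) 0)
    fun w => Or.inl (wP_pos _ _ _ _).ne'
  have c3 : Continuous fun w => (1 + ∑ j, ‖D.π w j‖ ^ 2)⁻¹ := Continuous.inv₀
    (continuous_const.add (continuous_finsetSum _ fun j _ =>
      ((continuous_apply j).comp continuous_π).norm.pow 2)) fun w => (q0 w).ne'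
  have m1 : ∀ (S : ℕ) w, wP s a 0 w ^ (-c) ≤ wP s a S w ^ (-c) := fun S w =>
    Real.rpow_le_rpow_of_nonpos (wP_pos _ _ _ _) (wP_anti s a w (Nat.cast_nonneg S)) (by linarith)
  have m2 : ∀ (S : ℕ) w, wP p (fun _ => 1) 0 w ^ (-(n + 1 : ℝ)) ≤
      wP p (fun _ => 1) S w ^ (-(n + 1 : ℝ)) := fun S w =>
    Real.rpow_le_rpow_of_nonpos (wP_pos _ _ _ _) (wP_anti p _ w (Nat.cast_nonneg S)) (by linarith)
  refine ⟨F, hF', ?_, ?_, ?_⟩
  · have hN : D.NI (wE p fun _ => 1) z (n + 1) := by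
      have : (wE p fun _ => 1) = fun w => ∑ j, ‖D.π w j - D.π z j‖ ^ 2 := funext fun w => wE_one p w
      rw [this]
      exact ni_pole z
    have h1 := force isOpen_univ (mem_univ z) (fun j => (cp j).continuousOn) n0 hN
      (f := fun w => ‖ζ w - F w‖ ^ 2 * (wP s a 0 w ^ (-c) * (1 + ∑ j, ‖D.π w j‖ ^ 2)⁻¹))
      (((cζ.sub cF).norm.pow 2).mul (c1.mul c3)).continuousAt h3A fun S => by
        rw [Measure.restrict_univ]
        refine le_trans (lintegral_mono fun w => ENNReal.ofReal_le_ofReal ?_) (hFb S)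
        have e5 := Real.rpow_pos_of_pos (wP_pos p (fun _ => 1) w S) (-(n + 1 : ℝ))
        have e6 := mul_le_mul_of_nonneg_left (m1 S w)
          (mul_nonneg (sq_nonneg ‖ζ w - F w‖) (mul_pos e5 (inv_pos.2 (q0 w))).le)
        rw [ex]
        linarith
    have h2 : ‖ζ z - F z‖ ^ 2 ≤ 0 := nonpos_of_mul_nonpos_left h1
      (mul_pos (Real.rpow_pos_of_pos (wP_pos _ _ _ _) _) (inv_pos.2 (q0 z)))
    have h4 := pow_eq_zero_iff two_ne_zero |>.1 (le_antisymm h2 (by positivity))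
    rw [norm_eq_zero, sub_eq_zero, hζz.self_of_nhds] at h4
    exact h4.symm
  · obtain ⟨K, hK, hKV, hKc⟩ := local_compact_nhds (hV₂.mem_nhds hx2)
    obtain ⟨η, hη, hηK⟩ : ∃ η > (0 : ℝ), ∀ w ∈ K, η ≤ wP p (fun _ => 1) 0 w ^ (-(n + 1 : ℝ)) *
        (1 + ∑ j, ‖D.π w j‖ ^ 2)⁻¹ := hKc.exists_forall_le' (c2.mul c3).continuousOn fun w _ =>
      mul_pos (Real.rpow_pos_of_pos (wP_pos _ _ _ _) _) (inv_pos.2 (q0 w))
    refine ⟨interior K, interior_mem_nhds.2 hK, ne_top_of_le_ne_top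
      (ENNReal.mul_ne_top (ENNReal.ofReal_ne_top (r := η⁻¹)) h3A) ?_⟩
    refine lint_limit (f := fun w => ‖F w‖ ^ 2) isOpen_interior (fun i => (cs i).continuousOn) hc
      (cF.norm.pow 2).continuousOn fun S => ?_
    refine le_trans ?_ (mul_le_mul_right (hFb S) _)
    rw [← lintegral_const_mul' _ _ ENNReal.ofReal_ne_top]
    refine le_trans (setLIntegral_mono' isOpen_interior.measurableSet fun w hw => ?_)
      (setLIntegral_le_lintegral _ _)
    have z0 : ζ w = 0 := image_eq_zero_of_notMem_tsupport fun h' =>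
      disjoint_left.1 hdis (hsupp h').1.2 (hKV (interior_subset hw))
    rw [← ENNReal.ofReal_mul (inv_pos.2 hη).le, z0, zero_sub, norm_neg, ex]
    refine ENNReal.ofReal_le_ofReal ?_
    rw [le_inv_mul_iff₀ hη]
    have e4 := Real.rpow_pos_of_pos (wP_pos s a w S) (-c)
    have e6 := (hηK w (interior_subset hw)).trans
      (mul_le_mul_of_nonneg_right (m2 S w) (inv_pos.2 (q0 w)).le)
    have e7 := mul_le_mul_of_nonneg_left e6 (mul_nonneg (sq_nonneg ‖F w‖) e4.le)
    linarith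
  · have hpt : ∀ w, ENNReal.ofReal (‖F w‖ ^ 2 * Real.exp (-φ 0 w)) ≤
        2 * ENNReal.ofReal (‖ζ w‖ ^ 2 * Real.exp (-φ 0 w)) +
          2 * ENNReal.ofReal (‖ζ w - F w‖ ^ 2 * Real.exp (-φ 0 w)) := fun w => by
      rw [← ENNReal.ofReal_ofNat 2, ← ENNReal.ofReal_mul zero_le_two,
        ← ENNReal.ofReal_mul zero_le_two, ← ENNReal.ofReal_add (by positivity) (by positivity)]
      refine ENNReal.ofReal_le_ofReal ?_
      have h3 : ‖F w‖ ≤ ‖ζ w‖ + ‖ζ w - F w‖ := by simpa using norm_sub_le (ζ w) (ζ w - F w)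
      have h4 : ‖F w‖ ^ 2 ≤ 2 * ‖ζ w‖ ^ 2 + 2 * ‖ζ w - F w‖ ^ 2 := by
        nlinarith [norm_nonneg (F w), sq_nonneg (‖ζ w‖ - ‖ζ w - F w‖)]
      have h5 := mul_le_mul_of_nonneg_right h4 (Real.exp_pos (-φ 0 w)).le
      linarith
    have h1 : ∫⁻ w, ENNReal.ofReal (‖F w‖ ^ 2 * Real.exp (-φ 0 w)) ∂D.ν ≠ ⊤ := by
      refine ne_top_of_le_ne_top ?_ (lintegral_mono hpt)
      rw [lintegral_add_left ((cI 0).measurable.ennreal_ofReal.const_mul 2),
        lintegral_const_mul' _ _ (by norm_num), lintegral_const_mul' _ _ (by norm_num)]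
      exact ENNReal.add_ne_top.2 ⟨ENNReal.mul_ne_top (by norm_num) (hg2 0),
        ENNReal.mul_ne_top (by norm_num) (ne_top_of_le_ne_top h3A (hFb 0))⟩
    simpa only [ex, Nat.cast_zero] using h1

end EtDom

end Vale.Agent.P271
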