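import Vale.Agent.P271.M.JB
import Vale.Agent.P271.C.Dom
import Vale.Agent.P271.C.Filt
import Vale.Agent.P271.C.GS

/-! P271 M/OD: orthonormal data, one basis for each level.

Plan. `toO`: for each `k` apply `exists_on` to `T = {i | κ i ≤ k}` (`FlagBasis.card`,
`Module.finrank_eq_card_basis`), put `a ⟨k, r⟩ = P.a (τ r)`; `Zf_eq`, `Equiv.sum_comp`,
`mem_Jw_of_span`. `ofO`: `exists_filt` for the family `ovec e v` in `V K`, then `IsLeaf.flag`, weights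
`wt (ℓ (s i))`; `dom_level` at level `k` for the family `r ↦ ovec e v ⟨k, r⟩` (`on_li`, `T = univ`)
with `φ = fun x => exp (-(b * x))`; `Zf_eq`, `wk_nonneg`. `exists_dat0`: `exists_filt` for the empty
family and `IsLeaf.flag`. Auxiliary names start with `od_`. -/

open MeasureTheory Set Filter Topology
open scoped ContDiff ENNReal ComplexConjugate

noncomputable section

namespace Vale.Agent.P271

variable {A : Type} [CommRing A] [Algebra ℂ A] {V : ℕ → Submodule ℂ A} {K : ℕ} {A₀ : ℝ}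
  {dk : Fin (K + 1) → ℕ}

/-- The vectors of orthonormal data. -/
def ovec (e : ∀ k : Fin (K + 1), Module.Basis (Fin (dk k)) ℂ (V k))
    (v : ∀ k, Fin (dk k) → EuclideanSpace ℂ (Fin (dk k))) (i : Σ k, Fin (dk k)) : A :=
  ∑ j, v i.1 i.2 j • (e i.1 j : A)

/-- The partition function of orthonormal data. -/
def oZ (a : (Σ k, Fin (dk k)) → ℝ) (μ b : ℝ) : ℝ :=
  ∑ k : Fin (K + 1), wk μ K k * ∑ r, Real.exp (-(b * a ⟨k, r⟩))

theorem od_rank (e : ∀ k : Fin (K + 1), Module.Basis (Fin (dk k)) ℂ (V k)) (k : Fin (K + 1)) :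
    Module.finrank ℂ (V k) = dk k := by
  rw [Module.finrank_eq_card_basis (e k), Fintype.card_fin]

theorem toO (hV : Monotone V) (e : ∀ k : Fin (K + 1), Module.Basis (Fin (dk k)) ℂ (V k))
    (P : Dat V K A₀) :
    ∃ (v : ∀ k, Fin (dk k) → EuclideanSpace ℂ (Fin (dk k))) (a : (Σ k, Fin (dk k)) → ℝ),
      (∀ k, Orthonormal ℂ (v k)) ∧ (∀ i, a i ∈ Icc 0 A₀) ∧
      (∀ μ b, oZ a μ b = Zf P.κ P.a μ b) ∧ ∀ i, ovec e v i ∈ Jw P.s P.a (a i) := by
  classical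
  choose v τ hv hτ using fun k : Fin (K + 1) => exists_on (e k)
    (Finset.univ.filter fun i => P.κ i ≤ k) P.fb.li
    (fun i hi => hV (Finset.mem_filter.1 hi).2 (P.fb.mem i))
    ((P.fb.card hV (Nat.le_of_lt_succ k.2)).trans (od_rank e k)) P.a
  refine ⟨v, fun i => P.a (τ i.1 i.2), hv, fun i => ⟨P.a0 _, P.a1 _⟩, fun μ b => ?_,
    fun i => mem_Jw_of_span _ _ (hτ i.1 i.2)⟩
  rw [Zf_eq P.fb.le, Finset.sum_range, oZ]
  refine Finset.sum_congr rfl fun k _ => congrArg _ ?_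
  exact ((τ k).sum_comp fun i => Real.exp (-(b * P.a i))).trans
    (Finset.sum_coe_sort _ fun i => Real.exp (-(b * P.a i)))

theorem ofO (hV : Monotone V) (hA : 0 ≤ A₀)
    (e : ∀ k : Fin (K + 1), Module.Basis (Fin (dk k)) ℂ (V k))
    {v : ∀ k, Fin (dk k) → EuclideanSpace ℂ (Fin (dk k))} {a : (Σ k, Fin (dk k)) → ℝ}
    (hv : ∀ k, Orthonormal ℂ (v k)) (ha : ∀ i, a i ∈ Icc 0 A₀) :
    ∃ P : Dat V K A₀, (∀ μ b, 0 ≤ μ → 0 ≤ b → Zf P.κ P.a μ b ≤ oZ a μ b) ∧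
      ∀ i, 0 < P.a i → P.s i ∈ Jw (ovec e v) a (P.a i) := by
  have : FiniteDimensional ℂ (V K) := (e (Fin.last K)).finiteDimensional_of_finite
  have hm : ∀ i : Σ k, Fin (dk k), ovec e v i ∈ V i.1 := fun i =>
    Submodule.sum_mem _ fun j _ => Submodule.smul_mem _ _ (e i.1 j).2
  obtain ⟨Λ, _, ℓ, wt, hℓ, hwt, h1, h2⟩ := exists_filt (V K) (g := ovec e v)
    (fun i => hV (Nat.le_of_lt_succ i.1.2) (hm i)) hA ha
  obtain ⟨ι, _, s, κ, hs, hi, hsur⟩ := hℓ.flag hV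
  have h3 := fun i => h2 (s i) (hV (hs.le i) (hs.mem i)) (hs.li.ne_zero i)
  refine ⟨⟨ι, s, κ, fun i => wt (ℓ (s i)), hs, fun i => (h3 i).1, fun i => (h3 i).2.1⟩,
    fun μ b hμ hb => ?_, fun i h => mem_Jw_of_span _ _ ((h3 i).2.2 h)⟩
  rw [Zf_eq hs.le, Finset.sum_range, oZ]
  refine Finset.sum_le_sum fun k _ => mul_le_mul_of_nonneg_left ?_ (wk_nonneg hμ _ _)
  have h4 : LinearIndependent ℂ fun r => ovec e v ⟨k, r⟩ := on_li (e k) (hv k)
  exact dom_level hV hℓ hwt hs hi hsur (Nat.le_of_lt_succ k.2) (g := fun r => ovec e v ⟨k, r⟩)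
    Finset.univ (h4.comp _ Subtype.val_injective) (fun r _ => hm ⟨k, r⟩)
    (by rw [od_rank e k, Finset.card_fin]) (a := fun r => a ⟨k, r⟩)
    (fun r _ => h1 _ (h4.ne_zero r)) (φ := fun x => Real.exp (-(b * x)))
    fun x y h => Real.exp_le_exp.2 (neg_le_neg (mul_le_mul_of_nonneg_left h hb))

theorem exists_dat0 (hV : Monotone V) [FiniteDimensional ℂ (V K)] (hA : 0 ≤ A₀) :
    ∃ P : Dat V K A₀, ∀ i, P.a i = 0 := by
  obtain ⟨Λ, _, ℓ, -, hℓ, -⟩ := exists_filt (V K) (ι := Empty) (g := fun i => i.elim)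
    (fun i => i.elim) (a := fun i => i.elim) hA fun i => i.elim
  obtain ⟨ι, _, s, κ, hs, -⟩ := hℓ.flag hV
  exact ⟨⟨ι, s, κ, fun _ => 0, hs, fun _ => le_rfl, fun _ => hA⟩, fun _ => rfl⟩

end Vale.Agent.P271
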