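import Vale.Agent.P271.M.SecW

/-! P271 M/SecA: the error term of the last step is small.

Plan. On the compact `tsupport ζ`, `exp (-secφ) ≤ C₁ * secP ^ (-t)` with `C₁` a bound of
`exp (θ log |u| ^ 2)` (`sp ≥ 0`, `log (1 + ..) ≥ 0`). So the integrand is at most
`B C₁ exp (-t (m T - 1))` times the indicator of `N ∩ {wE s (a - m κ) ≤ exp (-(T - l))}`
(`wE_le_of_secP`, `l = log (card + 1)`) plus `B C₁` times the indicator of
`O ∩ {wE s a ≤ exp (-((1 - σ) (T - l) - l))}` (`wE_le_of_shift`), where `O` is an open set containing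
the compact shell with finite integral of `wE ^ (-c')` (finitely many interiors of neighbourhoods,
`lintegral_iUnion_le` or `lintegral_union_le`); `meas_le_of_lint`. Use
`lintegral_indicator_const_le`; the second set is measurable (`lintegral_add_right`). Take
`δ = min ((t - t₁) m) (c' (1 - σ) - c)`. Auxiliary names start with `seca_`. -/

open MeasureTheory Set Filter Topology
open scoped ContDiff ENNReal ComplexConjugate

noncomputable section

namespace Vale.Agent.P271

namespace EtDom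

variable {n : ℕ} {Ω : Type} [TopologicalSpace Ω] [T2Space Ω] [SecondCountableTopology Ω]
  [MeasurableSpace Ω] [BorelSpace Ω] {D : EtDom n Ω}

theorem sec_error {ι : Type} [Fintype ι] {s : ι → Ω → ℂ} {a : ι → ℝ} {κ : ι → ℕ} {u ζ : Ω → ℂ}
    (hs : ∀ i, Continuous (s i)) (hκ : ∀ i, 0 < a i → 1 ≤ κ i) (hu : Continuous u)
    (hu0 : ∀ w, u w ≠ 0) (hζ : HasCompactSupport ζ) {c c' t t₁ e θ m σ B C₀ : ℝ} (hc' : 0 ≤ c')
    (ht : 0 ≤ t) (htt : t₁ < t) (he : 0 ≤ e) (hm : 0 < m) (hσ : σ < 1) (hcc : c < c' * (1 - σ))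
    (hB : 0 ≤ B) (hma : ∀ i, 0 < a i → m * κ i ≤ σ * a i)
    (iso : ∀ z ∈ shell ζ, ¬D.NI (wE s a) z c') {N : Set Ω} (hN : tsupport ζ ⊆ N)
    (shift : ∀ T, 0 ≤ T → D.ν (N ∩ {w | wE s (fun i => a i - m * κ i) w ≤ Real.exp (-T)}) ≤
      ENNReal.ofReal (C₀ * Real.exp (-((c - t₁ * m) * T)))) :
    ∃ C δ T₀ : ℝ, 0 < δ ∧ ∀ T, T₀ ≤ T →
      ∫⁻ w, ENNReal.ofReal (secM s a κ ζ B m T w * Real.exp (-D.secφ s a κ u t e θ m T w)) ∂D.ν ≤
        ENNReal.ofReal (C * Real.exp (-((c + δ) * T))) := by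
  classical
  have cE : Continuous (wE s a) :=
    continuous_iff_continuousAt.2 fun w => wE_continuousAt s a w fun i => (hs i).continuousAt
  have hsh : IsCompact (shell ζ) := hζ.isCompact.diff isOpen_interior
  obtain ⟨O, hO, hOs, hOI⟩ : ∃ O, IsOpen O ∧ shell ζ ⊆ O ∧
      ∫⁻ w in O, ENNReal.ofReal (wE s a w) ^ (-c') ∂D.ν ≠ ⊤ := by
    refine hsh.induction_on (p := fun S => ∃ O, IsOpen O ∧ S ⊆ O ∧
      ∫⁻ w in O, ENNReal.ofReal (wE s a w) ^ (-c') ∂D.ν ≠ ⊤) ⟨∅, isOpen_empty, subset_rfl, by simp⟩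
      (fun _ _ h ⟨O, h1, h2, h3⟩ => ⟨O, h1, h.trans h2, h3⟩)
      (fun _ _ ⟨O, h1, h2, h3⟩ ⟨O', h1', h2', h3'⟩ => ⟨O ∪ O', h1.union h1',
        union_subset_union h2 h2', ne_top_of_le_ne_top (ENNReal.add_ne_top.2 ⟨h3, h3'⟩)
          (lintegral_union_le _ _ _)⟩) fun z hz => ?_
    have h := iso z hz
    simp only [NI, not_forall] at h
    obtain ⟨U, hU, hUI⟩ := h
    exact ⟨interior U, mem_nhdsWithin_of_mem_nhds (interior_mem_nhds.2 hU), interior U,
      isOpen_interior, subset_rfl, ne_top_of_le_ne_top hUI (lintegral_mono_set interior_subset)⟩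
  obtain ⟨C₁, hC₁⟩ := hζ.isCompact.exists_bound_of_continuousOn
    (f := fun w => θ * Real.log (‖u w‖ ^ 2)) (Continuous.continuousOn ((Continuous.log (hu.norm.pow 2)
      fun w => pow_ne_zero 2 (norm_ne_zero_iff.2 (hu0 w))).const_mul θ))
  set l := Real.log (Fintype.card ι + 1) with hl
  have l0 : 0 ≤ l := Real.log_nonneg (by linarith [Nat.cast_nonneg (α := ℝ) (Fintype.card ι)])
  set I := (∫⁻ w in O, ENNReal.ofReal (wE s a w) ^ (-c') ∂D.ν).toReal with hI
  have I0 : 0 ≤ I := ENNReal.toReal_nonneg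
  set δ := min ((t - t₁) * m) (c' * (1 - σ) - c) with hδ
  set k := B * Real.exp C₁ with hk
  have k0 : 0 ≤ k := by positivity
  refine ⟨k * (Real.exp t * max C₀ 0 * Real.exp ((c - t₁ * m) * l)) +
    k * (Real.exp (c' * ((1 - σ) * l + l)) * I), δ, l,
    lt_min (mul_pos (by linarith) hm) (by linarith), fun T hT => ?_⟩
  have T0 : 0 ≤ T := l0.trans hT
  have hφ : ∀ w ∈ tsupport ζ, Real.exp (-D.secφ s a κ u t e θ m T w) ≤
      Real.exp C₁ * Real.exp (-(t * Real.log (secP s a κ T w))) := fun w hw => by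
    rw [← Real.exp_add]
    refine Real.exp_le_exp.2 ?_
    have h1 := (le_abs_self _).trans (hC₁ w hw)
    have h2 := mul_nonneg he (sp_nonneg (Real.log (secP s a κ T w) - m * T))
    have h3 := mul_nonneg he (Real.log_nonneg (x := 1 + ∑ j, ‖D.π w j‖ ^ 2)
      (le_add_of_nonneg_right (Finset.sum_nonneg fun _ _ => sq_nonneg _)))
    unfold secφ
    linarith
  set S₁ := N ∩ {w | wE s (fun i => a i - m * κ i) w ≤ Real.exp (-(T - l))} with hS₁
  set S₂ := O ∩ {w | wE s a w ≤ Real.exp (-((1 - σ) * (T - l) - l))} with hS₂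
  have hm₂ : MeasurableSet S₂ := hO.measurableSet.inter (isClosed_le cE continuous_const).measurableSet
  have hpt : ∀ w, ENNReal.ofReal (secM s a κ ζ B m T w * Real.exp (-D.secφ s a κ u t e θ m T w)) ≤
      S₁.indicator (fun _ => ENNReal.ofReal (k * Real.exp (-(t * (m * T - 1))))) w +
        S₂.indicator (fun _ => ENNReal.ofReal k) w := fun w => by
    unfold secM
    rw [add_mul]
    refine ENNReal.ofReal_add_le.trans (add_le_add ?_ ?_)
    · split_ifs with h
      · rw [indicator_of_mem (show w ∈ S₁ from ⟨hN h.2.2, wE_le_of_secP s a κ hκ hm.le h.2.1⟩), hk,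
          mul_assoc]
        refine ENNReal.ofReal_le_ofReal (mul_le_mul_of_nonneg_left ((hφ w h.2.2).trans
          (mul_le_mul_of_nonneg_left (Real.exp_le_exp.2 (neg_le_neg
            (mul_le_mul_of_nonneg_left h.1 ht))) (Real.exp_pos _).le)) hB)
      · simp
    · split_ifs with h
      · rw [indicator_of_mem (show w ∈ S₂ from ⟨hOs h.2, wE_le_of_shift s a κ hm.le hσ
          (sub_nonneg.2 hT) hma (wE_le_of_secP s a κ hκ hm.le h.1)⟩), hk]
        refine ENNReal.ofReal_le_ofReal (mul_le_mul_of_nonneg_left ((hφ w h.2.1).trans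
          (mul_le_of_le_one_right (Real.exp_pos _).le (Real.exp_le_one_iff.2 (neg_nonpos.2
            (mul_nonneg ht (Real.log_nonneg (one_le_secP s a κ T w))))))) hB)
      · simp
  refine (lintegral_mono hpt).trans ?_
  rw [lintegral_add_right _ (measurable_const.indicator hm₂), lintegral_indicator_const hm₂]
  have b1 := (shift (T - l) (sub_nonneg.2 hT)).trans (ENNReal.ofReal_le_ofReal
    (mul_le_mul_of_nonneg_right (le_max_left C₀ 0) (Real.exp_pos _).le))
  have b2 := meas_le_of_lint (D := D) hO cE.continuousOn hc' ((1 - σ) * (T - l) - l)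
  rw [← ENNReal.ofReal_toReal hOI, ← ENNReal.ofReal_mul (Real.exp_pos _).le] at b2
  refine (add_le_add ((lintegral_indicator_const_le _ _).trans (mul_le_mul_right b1 _))
    (mul_le_mul_right b2 _)).trans ?_
  rw [← ENNReal.ofReal_mul (by positivity), ← ENNReal.ofReal_mul k0,
    ← ENNReal.ofReal_add (by positivity) (by positivity), add_mul]
  refine ENNReal.ofReal_le_ofReal (add_le_add ?_ ?_)
  · have h1 : Real.exp (-(t * (m * T - 1))) * Real.exp (-((c - t₁ * m) * (T - l))) ≤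
        Real.exp t * Real.exp ((c - t₁ * m) * l) * Real.exp (-((c + δ) * T)) := by
      rw [← Real.exp_add, ← Real.exp_add, ← Real.exp_add]
      refine Real.exp_le_exp.2 ?_
      nlinarith [mul_le_mul_of_nonneg_right (min_le_left ((t - t₁) * m) (c' * (1 - σ) - c)) T0]
    have h2 := mul_le_mul_of_nonneg_left h1 (mul_nonneg k0 (le_max_right C₀ 0))
    linarith
  · have h1 : Real.exp (-(c' * ((1 - σ) * (T - l) - l))) ≤
        Real.exp (c' * ((1 - σ) * l + l)) * Real.exp (-((c + δ) * T)) := by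
      rw [← Real.exp_add]
      refine Real.exp_le_exp.2 ?_
      nlinarith [mul_le_mul_of_nonneg_right (min_le_right ((t - t₁) * m) (c' * (1 - σ) - c)) T0]
    have h2 := mul_le_mul_of_nonneg_left h1 (mul_nonneg k0 I0)
    linarith

end EtDom

end Vale.Agent.P271
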