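import Vale.Agent.P271.M.SecA
import Vale.Agent.P271.G.GZ0

/-! P271 M/SecB: the last step on an etale domain.

Plan. `e = (θ - t₁) / 3`, `t = t₁ + e`. Choose `σ ∈ (0, 1)` with `c < c' (1 - σ)`, then `m ∈ (0, M₀]` with
`m κ i ≤ σ a i` for `0 < a i`. Take `N, C₀` from `shift`, a cutoff `ζ` (`exists_cutoff`) supported in `N`
and in the set where `iso` holds (`eventually_nhdsWithin_iff`); `x ∉ shell ζ`. `sec_error` gives
`C, δ, T₀`. `hormander` on `univ` with the constant sequences `secφ`, `secM` (`sec_psh`, `sec_levi`,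
`cutoff_bound`, `exists_bc_bound`; `secg` is continuous with compact support) gives `F`. Take `W` from
`stein_nhds` inside `{ζ = 1}`. For `T` large, on `W ∩ {wE ≤ exp (-T)}`: `secg = 1` (`secP_le`, `bc_one`)
and `secφ ≤ C₂` independent of `T` (`sp_le`, compact closure). `gz0` for `g = 1 - F` with exponent
`c + δ / 3`, `ε = δ / 3` gives `|1 - F x| ^ 2 ≤ C₃ exp (-δ T / 3) < 1`. Finally
`|F| ^ 2 ≤ 2 |secg| ^ 2 + 2 |secg - F| ^ 2`. Auxiliary names start with `secb_`. -/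

open MeasureTheory Set Filter Topology
open scoped ContDiff ENNReal ComplexConjugate

noncomputable section

namespace Vale.Agent.P271

namespace EtDom

variable {n : ℕ} {Ω : Type} [TopologicalSpace Ω] [T2Space Ω] [SecondCountableTopology Ω]
  [MeasurableSpace Ω] [BorelSpace Ω] {D : EtDom n Ω}

theorem exists_section (hSt : D.Stein univ) {ι : Type} [Fintype ι] {s : ι → Ω → ℂ} {a : ι → ℝ}
    {κ : ι → ℕ} {u : Ω → ℂ} (hs : ∀ i w, D.HolAt (s i) w) (hκ : ∀ i, 0 < a i → 1 ≤ κ i)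
    (hu : ∀ w, D.HolAt u w ∧ u w ≠ 0) {x : Ω} {c c' t₁ θ M₀ : ℝ} (hc : 0 ≤ c)
    (adm : D.Adm (wE s a) x c) (hcc : c < c') (iso : ∀ᶠ z in 𝓝[≠] x, ¬D.NI (wE s a) z c')
    (ht₁ : 0 ≤ t₁) (ht : t₁ < θ) (hM : 0 < M₀)
    (shift : ∀ m ∈ Ioc 0 M₀, ∃ N ∈ 𝓝 x, ∃ C : ℝ, ∀ T, 0 ≤ T →
      D.ν (N ∩ {w | wE s (fun i => a i - m * κ i) w ≤ Real.exp (-T)}) ≤
        ENNReal.ofReal (C * Real.exp (-((c - t₁ * m) * T)))) :
    ∃ (F : Ω → ℂ) (t e m T : ℝ), 0 ≤ t ∧ 0 ≤ e ∧ t + 2 * e = θ ∧ 0 ≤ m * T ∧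
      (∀ w, D.HolAt F w) ∧ F x ≠ 0 ∧
      ∫⁻ w, ENNReal.ofReal (‖F w‖ ^ 2 * Real.exp (-D.secφ s a κ u t e θ m T w)) ∂D.ν ≠ ⊤ := by
  classical
  have := D.finiteOnCompacts
  obtain ⟨e, he, heθ⟩ : ∃ e : ℝ, 0 < e ∧ t₁ + e + 2 * e = θ := ⟨(θ - t₁) / 3, by linarith, by ring⟩
  have hc' : 0 < c' := hc.trans_lt hcc
  have ht0 : 0 ≤ t₁ + e := by linarith
  obtain ⟨σ, hσ0, hσ1, hcσ⟩ : ∃ σ : ℝ, 0 < σ ∧ σ < 1 ∧ c < c' * (1 - σ) := by
    refine ⟨(c' - c) / (2 * c'), div_pos (by linarith) (by linarith),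
      (div_lt_one (by linarith)).2 (by linarith), ?_⟩
    have : c' * (1 - (c' - c) / (2 * c')) = (c' + c) / 2 := by field_simp; ring
    linarith
  obtain ⟨m, hm0, hmM, hma⟩ : ∃ m : ℝ, 0 < m ∧ m ≤ M₀ ∧ ∀ i, 0 < a i → m * κ i ≤ σ * a i := by
    have t0 : ∀ (B r : ℝ), 0 < r → ∀ᶠ m in 𝓝[>] (0 : ℝ), m * B ≤ r := fun B r hr => by
      have : Tendsto (fun m : ℝ => m * B) (𝓝[>] 0) (𝓝 (0 * B)) :=
        (tendsto_id.mul_const B).mono_left nhdsWithin_le_nhds
      rw [zero_mul] at this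
      exact this.eventually (ge_mem_nhds hr)
    have e1 : ∀ᶠ m in 𝓝[>] (0 : ℝ), ∀ i, 0 < a i → m * κ i ≤ σ * a i :=
      eventually_all.2 fun i => by
        by_cases h : 0 < a i
        · exact (t0 _ _ (mul_pos hσ0 h)).mono fun _ h' _ => h'
        · exact Eventually.of_forall fun _ h' => absurd h' h
    obtain ⟨m, ⟨a1, a2⟩, a3⟩ := ((e1.and (t0 1 M₀ hM)).and self_mem_nhdsWithin).exists
    exact ⟨m, a3, by linarith, a1⟩
  obtain ⟨N, hN, C₀, hC₀⟩ := shift m ⟨hm0, hmM⟩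
  obtain ⟨ζ, hζ, hsupp, hζ1, hζx⟩ := D.exists_cutoff (inter_mem hN (eventually_nhdsWithin_iff.1 iso))
  have hxs : x ∉ shell ζ := fun h => h.2 (mem_interior_iff_mem_nhds.2 hζx)
  obtain ⟨B₁, hB₁, hB₁'⟩ := exists_bc_bound
  obtain ⟨B₂, hB₂, hB₂'⟩ := cutoff_bound hζ
  have cs : ∀ i, Continuous (s i) := fun i =>
    continuous_iff_continuousAt.2 fun w => (hs i w).smAt.continuousAt
  have cu : Continuous u := continuous_iff_continuousAt.2 fun w => (hu w).1.smAt.continuousAt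
  obtain ⟨C, δ, T₀, hδ, hA⟩ := sec_error (D := D) (B := 2 * (B₁ + B₂) / e) (t := t₁ + e) (θ := θ) cs hκ
    cu (fun w => (hu w).2) hζ.2 hc'.le ht0 (by linarith) he.le hm0 hσ1 hcσ (by positivity) hma
    (fun z hz => (hsupp hz.1).2 fun h => hxs (h ▸ hz)) (hsupp.trans inter_subset_left) hC₀
  obtain ⟨W, hW, hxW, hWc, hWk⟩ := D.stein_nhds hζx
  have hWm := hW.1.measurableSet
  obtain ⟨R, hR⟩ := hWk.exists_bound_of_continuousOn (f := fun w i => s i w)
    (continuous_pi cs).continuousOn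
  obtain ⟨C₃, hC₃, N', hN', hgz⟩ := gz0 a R (c := c + δ / 3) (ε := δ / 3) (by linarith)
    (by linarith) hW hxW
  obtain ⟨C₂, hC₂⟩ := hWk.exists_bound_of_continuousOn
    (f := fun w => e * Real.log (1 + ∑ j, ‖D.π w j‖ ^ 2) + -θ * Real.log (‖u w‖ ^ 2))
    (Continuous.continuousOn (((Continuous.log (continuous_const.add (continuous_finsetSum _
      fun j _ => ((continuous_apply j).comp continuous_π).norm.pow 2))
      fun w => (add_pos_of_pos_of_nonneg one_pos
        (Finset.sum_nonneg fun _ _ => sq_nonneg _)).ne').const_mul e).add ((Continuous.log (cu.norm.pow 2)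
      fun w => pow_ne_zero 2 (norm_ne_zero_iff.2 (hu w).2)).const_mul (-θ))))
  set l := Real.log (1 + 2 * Fintype.card ι) with hl
  set C₄ := Real.exp ((t₁ + e) * l + e + C₂) with hC₄
  obtain ⟨T, ⟨⟨hT0, hT1⟩, hT2⟩, hT3⟩ : ∃ T : ℝ, ((0 ≤ T ∧ T₀ ≤ T) ∧ l + 1 ≤ m * T) ∧
      C₃ * (C₄ * (3 * max C 0)) * Real.exp (-(δ / 3 * T)) < 1 := by
    have h1 : Tendsto (fun T : ℝ => C₃ * (C₄ * (3 * max C 0)) * Real.exp (-(δ / 3 * T))) atTop
        (𝓝 (C₃ * (C₄ * (3 * max C 0)) * 0)) :=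
      (Real.tendsto_exp_neg_atTop_nhds_zero.comp
        (tendsto_id.const_mul_atTop (by linarith))).const_mul _
    rw [mul_zero] at h1
    exact ((((eventually_ge_atTop 0).and (eventually_ge_atTop T₀)).and
      ((tendsto_id.const_mul_atTop hm0).eventually (eventually_ge_atTop (l + 1)))).and
      (h1.eventually (gt_mem_nhds one_pos))).exists
  have sg : ∀ w, D.SmAt (secg s a κ ζ m T) w := fun w => secg_sm a κ (hs · w) (hζ.1 w) m T
  have pφ : ∀ w, D.Psh (D.secφ s a κ u (t₁ + e) e θ m T) w := fun w =>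
    sec_psh a κ (hs · w) (hu w).1 (hu w).2 ht0 he.le θ m T
  have cg : Continuous (secg s a κ ζ m T) :=
    continuous_iff_continuousAt.2 fun w => (sg w).continuousAt
  have cφ : Continuous (D.secφ s a κ u (t₁ + e) e θ m T) :=
    continuous_iff_continuousAt.2 fun w => (pφ w).1.continuousAt
  have cI : Continuous fun w => ‖secg s a κ ζ m T w‖ ^ 2 *
      Real.exp (-D.secφ s a κ u (t₁ + e) e θ m T w) :=
    (cg.norm.pow 2).mul (Real.continuous_exp.comp cφ.neg)
  have hg2 : ∫⁻ w, ENNReal.ofReal (‖secg s a κ ζ m T w‖ ^ 2 *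
      Real.exp (-D.secφ s a κ u (t₁ + e) e θ m T w)) ∂D.ν ≠ ⊤ := by
    refine (Integrable.lintegral_lt_top (cI.integrable_of_hasCompactSupport ?_)).ne
    refine hζ.2.mono' fun w hw => subset_tsupport _ fun h => hw ?_
    simp [secg, h]
  obtain ⟨F, hF, hFb⟩ := hormander hSt (g := secg s a κ ζ m T)
    (φ := fun _ => D.secφ s a κ u (t₁ + e) e θ m T)
    (M := fun _ => secM s a κ ζ (2 * (B₁ + B₂) / e) m T)
    (A := ENNReal.ofReal (C * Real.exp (-((c + δ) * T)))) (fun w _ => sg w) (fun _ w _ => pφ w)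
    (fun _ _ => antitone_const) (fun _ w _ => by unfold secM; split_ifs <;> positivity)
    (fun _ w _ v => sec_levi a κ (hs · w) (hu w).1 (hu w).2 ht0 he (hζ.1 w) (hζ1 w) hB₁.le hB₂ hB₁' v
      (hB₂' w v) θ m T)
    (fun _ => by rwa [Measure.restrict_univ]) (fun _ => by
      rw [Measure.restrict_univ]; exact hA T hT1) ENNReal.ofReal_ne_top
  have hFb := hFb 0
  rw [Measure.restrict_univ] at hFb
  have hF' : ∀ w, D.HolAt F w := fun w => hF w (mem_univ w)
  have cF : Continuous F := continuous_iff_continuousAt.2 fun w => (hF' w).smAt.continuousAt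
  refine ⟨F, t₁ + e, e, m, T, ht0, he.le, heθ, by positivity, hF', fun hx => ?_, ?_⟩
  · have h1 := hgz s (fun i w hw => ⟨hs i w, (norm_le_pi_norm (fun i => s i w) i).trans
      (hR w (subset_closure hw))⟩) x (mem_of_mem_nhds hN') (adm _ (by linarith)) T hT0
      (fun w => 1 - F w) (fun w _ => (holAt_const 1).sub (hF' w)) (ne_top_of_le_ne_top
        (Integrable.lintegral_lt_top (((continuous_const.sub cF).norm.pow 2).continuousOn
          |>.integrableOn_compact hWk)).ne (lintegral_mono_set subset_closure))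
    have h2 : ∫⁻ w in W ∩ {w | wE s a w ≤ Real.exp (-T)}, ENNReal.ofReal (‖1 - F w‖ ^ 2) ∂D.ν ≤
        ENNReal.ofReal C₄ * (3 * ENNReal.ofReal (C * Real.exp (-((c + δ) * T)))) := by
      refine le_trans ?_ (mul_le_mul_right hFb _)
      rw [← lintegral_const_mul' _ _ ENNReal.ofReal_ne_top]
      refine le_trans (setLIntegral_mono' (hWm.inter (isClosed_le (continuous_iff_continuousAt.2
        fun w => wE_continuousAt s a w fun i => (cs i).continuousAt)
        continuous_const).measurableSet) fun w hw => ?_) (setLIntegral_le_lintegral _ _)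
      rw [← ENNReal.ofReal_mul (Real.exp_pos _).le]
      refine ENNReal.ofReal_le_ofReal ?_
      have q1 : Real.log (secP s a κ T w) ≤ l := Real.log_le_log
        (one_pos.trans_le (one_le_secP s a κ T w)) (secP_le s a κ hκ hw.2)
      have q2 : secg s a κ ζ m T w = 1 := by
        have : ζ w = 1 := hWc (subset_closure hw.1)
        rw [secg, bc_one (by linarith), this]
        simp
      have q3 := sp_le (Real.log (secP s a κ T w) - m * T)
      rw [max_eq_right (by linarith)] at q3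
      have q4 := (le_abs_self _).trans (hC₂ w (subset_closure hw.1))
      have q5 : 1 ≤ C₄ * Real.exp (-D.secφ s a κ u (t₁ + e) e θ m T w) := by
        rw [hC₄, ← Real.exp_add]
        refine Real.one_le_exp ?_
        unfold secφ
        nlinarith [mul_le_mul_of_nonneg_left q1 ht0, mul_le_mul_of_nonneg_left q3 he.le]
      rw [q2]
      nlinarith [sq_nonneg ‖1 - F w‖]
    have h3 := h1.trans (mul_le_mul_right (h2.trans (mul_le_mul_right (mul_le_mul_right
      (ENNReal.ofReal_le_ofReal (mul_le_mul_of_nonneg_right (le_max_left C 0)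
        (Real.exp_pos _).le)) _) _)) _)
    rw [← ENNReal.ofReal_ofNat 3, ← ENNReal.ofReal_mul (by positivity),
      ← ENNReal.ofReal_mul (by positivity), ← ENNReal.ofReal_mul (by positivity),
      ENNReal.ofReal_le_ofReal_iff (by positivity), hx, sub_zero, norm_one, one_pow] at h3
    have h4 : Real.exp (-(δ / 3 * T)) =
        Real.exp ((c + δ / 3 + δ / 3) * T) * Real.exp (-((c + δ) * T)) := by
      rw [← Real.exp_add]
      congr 1
      ring
    rw [h4] at hT3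
    linarith
  · have hpt : ∀ w, ENNReal.ofReal (‖F w‖ ^ 2 * Real.exp (-D.secφ s a κ u (t₁ + e) e θ m T w)) ≤
        2 * ENNReal.ofReal (‖secg s a κ ζ m T w‖ ^ 2 *
          Real.exp (-D.secφ s a κ u (t₁ + e) e θ m T w)) + 2 * ENNReal.ofReal
          (‖secg s a κ ζ m T w - F w‖ ^ 2 * Real.exp (-D.secφ s a κ u (t₁ + e) e θ m T w)) :=
      fun w => by
      rw [← ENNReal.ofReal_ofNat 2, ← ENNReal.ofReal_mul zero_le_two,
        ← ENNReal.ofReal_mul zero_le_two, ← ENNReal.ofReal_add (by positivity) (by positivity)]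
      refine ENNReal.ofReal_le_ofReal ?_
      have h3 : ‖F w‖ ≤ ‖secg s a κ ζ m T w‖ + ‖secg s a κ ζ m T w - F w‖ := by
        simpa using norm_sub_le (secg s a κ ζ m T w) (secg s a κ ζ m T w - F w)
      have h4 : ‖F w‖ ^ 2 ≤ 2 * ‖secg s a κ ζ m T w‖ ^ 2 + 2 * ‖secg s a κ ζ m T w - F w‖ ^ 2 := by
        nlinarith [norm_nonneg (F w), sq_nonneg (‖secg s a κ ζ m T w‖ - ‖secg s a κ ζ m T w - F w‖)]
      have h5 := mul_le_mul_of_nonneg_right h4
        (Real.exp_pos (-D.secφ s a κ u (t₁ + e) e θ m T w)).le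
      linarith
    refine ne_top_of_le_ne_top ?_ (lintegral_mono hpt)
    rw [lintegral_add_left (cI.measurable.ennreal_ofReal.const_mul 2),
      lintegral_const_mul' _ _ (by norm_num), lintegral_const_mul' _ _ (by norm_num)]
    exact ENNReal.add_ne_top.2 ⟨ENNReal.mul_ne_top (by norm_num) hg2, ENNReal.mul_ne_top
      (by norm_num) (ne_top_of_le_ne_top (ENNReal.mul_ne_top (by norm_num)
        ENNReal.ofReal_ne_top) hFb)⟩

end EtDom

end Vale.Agent.P271
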