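import Vale.Agent.P271.G.Reg
import Vale.Agent.P271.G.Cut

/-! P271 M/SecW: the weights of the last step (pointwise facts).

Plan. `secP_le`: `|s i| ^ 2 ≤ exp (-T) ^ a i` (`sq_le_wE`), so each term is at most `2 ^ (1 / κ) ≤ 2`.
`wE_le_of_secP`: each term is at most `exp (m T)`, so `|s i| ^ 2 ≤ exp (-(a i - m κ i) T)`.
`wE_le_of_shift`: `|s| ^ (2 / a) = (|s| ^ (2 / a')) ^ (a' / a)` with `a' / a ≥ 1 - σ`.
`psh_log_secP`: `psh_lse` over a finset of `Option ι`, `psh_log_sq` (index `Unit`, `ε = 1`) for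
`exp (a i T / 2) * s i`. `sec_levi`: `dbar_cut` with `b = fun σ => bc (σ + -(m T))`, `deriv_shift`,
`|x + y| ^ 2 ≤ 2 |x| ^ 2 + 2 |y| ^ 2`, `levi_add`, `levi_smul`, `levi_comp`, `levi_log_unit`: the Levi
form dominates both `e sp'' |dv ρ| ^ 2` and `e levi (log (1 + |π| ^ 2))`. The first term vanishes unless
`m T - 1 ≤ ρ ≤ m T` and `ζ w ≠ 0`; the second unless `ρ ≤ m T` and `w` is in the shell (elsewhere `ζ`
is locally constant: `db_congr`, `db_const`). Auxiliary names start with `secw_`. -/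

open MeasureTheory Set Filter Topology
open scoped ContDiff ENNReal ComplexConjugate

noncomputable section

namespace Vale.Agent.P271

section

variable {Ω ι : Type} [Fintype ι] (s : ι → Ω → ℂ) (a : ι → ℝ) (κ : ι → ℕ)

/-- The function whose sublevel sets interpolate between the shifted weights. -/
def secP (T : ℝ) (z : Ω) : ℝ :=
  1 + ∑ i, if 0 < a i then (1 + ‖s i z‖ ^ 2 * Real.exp (a i * T)) ^ (1 / κ i : ℝ) else 0

omit [Fintype ι] in
theorem secw_term (T : ℝ) (z : Ω) (i : ι) :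
    0 ≤ if 0 < a i then (1 + ‖s i z‖ ^ 2 * Real.exp (a i * T)) ^ (1 / κ i : ℝ) else 0 := by
  split_ifs
  · positivity
  · exact le_rfl

theorem secw_root {x : ℂ} {c S : ℝ} (hc : 0 < c) (h : ‖x‖ ^ 2 ≤ Real.exp (-(S * c))) :
    ‖x‖ ^ (2 / c) ≤ Real.exp (-S) := by
  have h1 := Real.rpow_le_rpow (sq_nonneg _) h (one_div_pos.2 hc).le
  rwa [← Real.rpow_two, ← Real.rpow_mul (norm_nonneg _), ← Real.exp_mul, mul_one_div, mul_one_div,
    neg_div, mul_div_cancel_right₀ _ hc.ne'] at h1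

theorem secw_sum {S : ℝ} {z : Ω} (h : ∀ i, 0 < a i → ‖s i z‖ ^ 2 ≤ Real.exp (-(S * a i))) :
    wE s a z ≤ Real.exp (-(S - Real.log (Fintype.card ι + 1))) := by
  have h1 : wE s a z ≤ ∑ _i : ι, Real.exp (-S) := by
    refine Finset.sum_le_sum fun i _ => ?_
    split_ifs with hi
    · exact secw_root hi (h i hi)
    · exact (Real.exp_pos _).le
  rw [Finset.sum_const, Finset.card_univ, nsmul_eq_mul] at h1
  rw [neg_sub, sub_eq_add_neg, Real.exp_add, Real.exp_log (by positivity)]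
  linarith [Real.exp_pos (-S)]

theorem secw_sq {T : ℝ} {z : Ω} (h : wE s a z ≤ Real.exp (-T)) {i : ι} (hi : 0 < a i) :
    ‖s i z‖ ^ 2 ≤ Real.exp (-(T * a i)) := by
  have h1 := (sq_le_wE s a z hi).trans (Real.rpow_le_rpow (wE_nonneg s a z) h hi.le)
  rwa [← Real.exp_mul, neg_mul] at h1

theorem one_le_secP (T : ℝ) (z : Ω) : 1 ≤ secP s a κ T z :=
  le_add_of_nonneg_right (Finset.sum_nonneg fun i _ => secw_term s a κ T z i)

theorem secP_le (hκ : ∀ i, 0 < a i → 1 ≤ κ i) {T : ℝ} {z : Ω} (h : wE s a z ≤ Real.exp (-T)) :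
    secP s a κ T z ≤ 1 + 2 * Fintype.card ι := by
  have h1 : ∑ i, (if 0 < a i then (1 + ‖s i z‖ ^ 2 * Real.exp (a i * T)) ^ (1 / κ i : ℝ) else 0) ≤
      ∑ _i : ι, (2 : ℝ) := by
    refine Finset.sum_le_sum fun i _ => ?_
    split_ifs with hi
    · have h2 := mul_le_mul_of_nonneg_right (secw_sq s a h hi) (Real.exp_pos (a i * T)).le
      rw [← Real.exp_add, mul_comm T, neg_add_cancel, Real.exp_zero] at h2
      have h3 : (1 : ℝ) ≤ κ i := by exact_mod_cast hκ i hi
      refine (Real.rpow_le_rpow (by positivity) (by linarith : _ ≤ (2 : ℝ)) (by positivity)).trans ?_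
      exact (Real.rpow_le_rpow_of_exponent_le one_le_two
        (div_le_one_of_le₀ h3 (by positivity))).trans_eq (Real.rpow_one 2)
    · exact zero_le_two
  rw [Finset.sum_const, Finset.card_univ, nsmul_eq_mul] at h1
  unfold secP
  linarith

theorem wE_le_of_secP (hκ : ∀ i, 0 < a i → 1 ≤ κ i) {m T : ℝ} (hm : 0 ≤ m) {z : Ω}
    (h : Real.log (secP s a κ T z) ≤ m * T) :
    wE s (fun i => a i - m * κ i) z ≤ Real.exp (-(T - Real.log (Fintype.card ι + 1))) := by
  refine secw_sum s _ fun i hi => ?_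
  have hi' : 0 < a i := by linarith [mul_nonneg hm (Nat.cast_nonneg (α := ℝ) (κ i))]
  have h3 : (0 : ℝ) < κ i := by exact_mod_cast hκ i hi'
  rw [Real.log_le_iff_le_exp (one_pos.trans_le (one_le_secP s a κ T z))] at h
  have h1 := Finset.single_le_sum (fun j _ => secw_term s a κ T z j) (Finset.mem_univ i)
  rw [if_pos hi'] at h1
  have h2 : (1 + ‖s i z‖ ^ 2 * Real.exp (a i * T)) ^ (1 / κ i : ℝ) ≤ Real.exp (m * T) := by
    unfold secP at h
    linarith
  have h4 := Real.rpow_le_rpow (by positivity) h2 h3.le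
  rw [← Real.rpow_mul (by positivity), one_div_mul_cancel h3.ne', Real.rpow_one,
    ← Real.exp_mul] at h4
  have e : -(T * (a i - m * κ i)) = m * T * κ i - a i * T := by ring
  rw [e, Real.exp_sub, le_div_iff₀ (Real.exp_pos _)]
  linarith

theorem wE_le_of_shift {m σ T : ℝ} (hm : 0 ≤ m) (hσ : σ < 1) (hT : 0 ≤ T)
    (h : ∀ i, 0 < a i → m * κ i ≤ σ * a i) {z : Ω}
    (hz : wE s (fun i => a i - m * κ i) z ≤ Real.exp (-T)) :
    wE s a z ≤ Real.exp (-((1 - σ) * T - Real.log (Fintype.card ι + 1))) := by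
  refine secw_sum s _ fun i hi => ?_
  have h1 := h i hi
  have h2 := mul_pos (sub_pos.2 hσ) hi
  refine (secw_sq s (fun i => a i - m * κ i) hz (i := i) (by linarith)).trans
    (Real.exp_le_exp.2 ?_)
  linarith [mul_le_mul_of_nonneg_left h1 hT]

/-- The function whose `dbar` is estimated. -/
def secg (ζ : Ω → ℂ) (m T : ℝ) (w : Ω) : ℂ := (bc (Real.log (secP s a κ T w) - m * T) : ℂ) * ζ w

/-- The set where the cutoff `ζ` is not locally constant lies in this set. -/
def shell [TopologicalSpace Ω] (ζ : Ω → ℂ) : Set Ω := tsupport ζ \ interior {w | ζ w = 1}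

open Classical in
/-- The bound for the `dbar`. -/
def secM [TopologicalSpace Ω] (ζ : Ω → ℂ) (B m T : ℝ) (w : Ω) : ℝ :=
  (if m * T - 1 ≤ Real.log (secP s a κ T w) ∧ Real.log (secP s a κ T w) ≤ m * T ∧ w ∈ tsupport ζ
    then B else 0) + if Real.log (secP s a κ T w) ≤ m * T ∧ w ∈ shell ζ then B else 0

end

namespace EtDom

variable {n : ℕ} {Ω : Type} [TopologicalSpace Ω] [T2Space Ω] [SecondCountableTopology Ω]
  [MeasurableSpace Ω] [BorelSpace Ω] {D : EtDom n Ω}

variable {ι : Type} [Fintype ι] {s : ι → Ω → ℂ} (a : ι → ℝ) (κ : ι → ℕ) {u ζ : Ω → ℂ} {w : Ω}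

/-- The weight. -/
def secφ (D : EtDom n Ω) (s : ι → Ω → ℂ) (a : ι → ℝ) (κ : ι → ℕ) (u : Ω → ℂ) (t e θ m T : ℝ)
    (w : Ω) : ℝ :=
  t * Real.log (secP s a κ T w) + e * sp (Real.log (secP s a κ T w) - m * T) +
    e * Real.log (1 + ∑ j, ‖D.π w j‖ ^ 2) + -θ * Real.log (‖u w‖ ^ 2)

theorem psh_log_secP (hs : ∀ i, D.HolAt (s i) w) (T : ℝ) :
    D.Psh (fun z => Real.log (secP s a κ T z)) w := by
  classical
  have h1 := psh_lse (D := D) (z := w) (s := (Finset.univ.filter fun i => 0 < a i).insertNone)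
    ⟨none, by simp⟩ (u := fun o z => o.elim 0 fun i => (1 / κ i : ℝ) *
      Real.log (1 + ∑ _j : Unit, ‖(Real.exp (a i * T / 2) : ℂ) * s i z‖ ^ 2)) (fun o _ => by
      cases o with
      | none => exact psh_const 0
      | some i =>
        exact (psh_log_sq (s := fun (_ : Unit) z => (Real.exp (a i * T / 2) : ℂ) * s i z)
          (fun _ => (holAt_const _).mul (hs i)) one_pos).smul (by positivity))
  refine h1.congr (Eventually.of_forall fun z => ?_)
  simp only [Finset.sum_insertNone, Option.elim, Real.exp_zero, secP, Finset.sum_filter]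
  refine congrArg (fun x => Real.log (1 + x)) (Finset.sum_congr rfl fun i _ => ?_)
  split_ifs
  · rw [Real.rpow_def_of_pos (by positivity), mul_comm, Finset.univ_unique, Finset.sum_singleton,
      norm_mul, mul_pow, Complex.norm_real, Real.norm_eq_abs, sq_abs, sq (Real.exp _),
      ← Real.exp_add, add_halves, mul_comm (Real.exp _)]
  · rfl

theorem secw_sp (hs : ∀ i, D.HolAt (s i) w) (m T : ℝ) :
    D.Psh (fun z => sp (Real.log (secP s a κ T z) - m * T)) w := by
  simp only [sub_eq_add_neg]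
  exact (psh_log_secP a κ hs T).comp (χ := fun σ => sp (σ + -(m * T)))
    (sp_smooth.comp (contDiff_id.add contDiff_const)).contDiffAt
    ((sp_d1 _).trans_eq (deriv_shift sp _ _).1.symm) ((sp_d2 _).trans_eq (deriv_shift sp _ _).2.symm)

theorem secw_add (x y : ℂ) : ‖x + y‖ ^ 2 ≤ 2 * ‖x‖ ^ 2 + 2 * ‖y‖ ^ 2 := by
  have h := pow_le_pow_left₀ (norm_nonneg _) (norm_add_le x y) 2
  linarith [sq_nonneg (‖x‖ - ‖y‖)]

theorem sec_psh (hs : ∀ i, D.HolAt (s i) w) (hu : D.HolAt u w) (hu0 : u w ≠ 0) {t e : ℝ}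
    (ht : 0 ≤ t) (he : 0 ≤ e) (θ m T : ℝ) : D.Psh (D.secφ s a κ u t e θ m T) w :=
  ((((psh_log_secP a κ hs T).smul ht).add ((secw_sp a κ hs m T).smul he)).add
    ((psh_log_sq holAt_π one_pos).smul he)).add (psh_log_unit hu hu0 (-θ))

theorem secg_sm (hs : ∀ i, D.HolAt (s i) w) (hζ : D.SmAt ζ w) (m T : ℝ) :
    D.SmAt (secg s a κ ζ m T) w :=
  ((psh_log_secP a κ hs T).1.comp (χ := fun σ => bc (σ - m * T))
    (bc_smooth.comp (contDiff_id.sub contDiff_const)).contDiffAt).ofReal.mul hζ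

theorem sec_levi (hs : ∀ i, D.HolAt (s i) w) (hu : D.HolAt u w) (hu0 : u w ≠ 0) {t e B₁ B₂ : ℝ}
    (ht : 0 ≤ t) (he : 0 < e) (hζ : D.SmAt ζ w) (hζ1 : ‖ζ w‖ ≤ 1) (h₁ : 0 ≤ B₁) (h₂ : 0 ≤ B₂)
    (hB₁ : ∀ τ, deriv bc τ ^ 2 ≤ B₁ * deriv (deriv sp) τ) (v : E n)
    (hB₂ : ‖∑ j, D.db j ζ w * conj (v j)‖ ^ 2 ≤
      B₂ * D.levi (fun w => Real.log (1 + ∑ j, ‖D.π w j‖ ^ 2)) w v) (θ m T : ℝ) :
    ‖∑ j, D.db j (secg s a κ ζ m T) w * conj (v j)‖ ^ 2 ≤
      secM s a κ ζ (2 * (B₁ + B₂) / e) m T w * D.levi (D.secφ s a κ u t e θ m T) w v := by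
  classical
  have hρ := psh_log_secP a κ hs T
  have hπ := psh_log_sq (D := D) (z := w) holAt_π one_pos
  have hsp := secw_sp a κ hs m T
  have hun := psh_log_unit hu hu0 (-θ)
  have hlog : D.SmAt (fun w => Real.log (‖u w‖ ^ 2)) w :=
    hu.smAt.normSq.comp (Real.contDiffAt_log.2 (pow_ne_zero 2 (norm_ne_zero_iff.2 hu0)))
  have e1 : D.levi (D.secφ s a κ u t e θ m T) w v =
      t * D.levi (fun z => Real.log (secP s a κ T z)) w v +
      e * D.levi (fun z => sp (Real.log (secP s a κ T z) - m * T)) w v +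
      e * D.levi (fun w => Real.log (1 + ∑ j, ‖D.π w j‖ ^ 2)) w v := by
    have h1 := levi_add v (((hρ.smul ht).add (hsp.smul he.le)).add (hπ.smul he.le)).1 hun.1
    rw [levi_add v ((hρ.smul ht).add (hsp.smul he.le)).1 (hπ.smul he.le).1,
      levi_add v (hρ.smul ht).1 (hsp.smul he.le).1, levi_smul v hρ.1, levi_smul v hsp.1,
      levi_smul v hπ.1, levi_smul v hlog, levi_log_unit v hu hu0, mul_zero, add_zero] at h1
    exact h1
  have e2 := levi_comp v hρ.1 (χ := fun σ => sp (σ + -(m * T)))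
    (sp_smooth.comp (contDiff_id.add contDiff_const)).contDiffAt
  have e3 := dbar_cut v hρ.1 (b := fun σ => bc (σ + -(m * T)))
    (bc_smooth.comp (contDiff_id.add contDiff_const)).contDiffAt hζ
  rw [(deriv_shift sp _ _).1, (deriv_shift sp _ _).2] at e2
  rw [(deriv_shift bc _ _).1] at e3
  simp only [← sub_eq_add_neg] at e2 e3
  have e4 : ∑ j, D.db j (secg s a κ ζ m T) w * conj (v j) = _ := e3
  rw [e4, secM, add_mul]
  have p1 := mul_nonneg ht (hρ.2 v)
  have p2 := mul_nonneg he.le (mul_nonneg (sp_d1 (Real.log (secP s a κ T w) - m * T)) (hρ.2 v))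
  have p3 := mul_nonneg he.le (mul_nonneg (sp_d2 (Real.log (secP s a κ T w) - m * T))
    (sq_nonneg ‖D.dv (fun z => Real.log (secP s a κ T z)) w v‖))
  have p4 := mul_nonneg he.le (hπ.2 v)
  rw [e2] at e1
  generalize D.levi (D.secφ s a κ u t e θ m T) w v = L at e1 ⊢
  have hL : 0 ≤ L := by linarith
  refine (secw_add _ _).trans (add_le_add ?_ ?_)
  · split_ifs with hc
    · rw [norm_mul, norm_mul, Complex.norm_conj, Complex.norm_real, Real.norm_eq_abs, mul_pow,
        mul_pow, sq_abs, div_mul_eq_mul_div, le_div_iff₀ he]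
      have q1 : ‖ζ w‖ ^ 2 ≤ 1 := pow_le_one₀ (norm_nonneg _) hζ1
      have q2 := mul_le_mul (hB₁ (Real.log (secP s a κ T w) - m * T)) q1 (sq_nonneg _)
        (mul_nonneg h₁ (sp_d2 _))
      have q3 := mul_le_mul_of_nonneg_right (mul_le_mul_of_nonneg_right q2
        (sq_nonneg ‖D.dv (fun z => Real.log (secP s a κ T z)) w v‖)) he.le
      have q4 : e * (deriv (deriv sp) (Real.log (secP s a κ T w) - m * T) *
          ‖D.dv (fun z => Real.log (secP s a κ T z)) w v‖ ^ 2) ≤ L := by linarith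
      have q5 := mul_le_mul_of_nonneg_left q4 h₁
      have q6 := mul_nonneg h₂ hL
      linarith
    · have h0 : ((deriv bc (Real.log (secP s a κ T w) - m * T) : ℝ) : ℂ) * ζ w = 0 := by
        by_cases hw : w ∈ tsupport ζ
        · rw [bc_deriv_zero, Complex.ofReal_zero, zero_mul]
          by_contra hn
          push Not at hn
          exact hc ⟨by linarith [hn.1], by linarith [hn.2], hw⟩
        · rw [image_eq_zero_of_notMem_tsupport hw, mul_zero]
      rw [h0]
      simp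
  · split_ifs with hc
    · rw [norm_mul, Complex.norm_real, Real.norm_eq_abs, mul_pow, sq_abs, div_mul_eq_mul_div,
        le_div_iff₀ he]
      have q1 : bc (Real.log (secP s a κ T w) - m * T) ^ 2 ≤ 1 :=
        pow_le_one₀ (bc_mem _).1 (bc_mem _).2
      have q2 := mul_le_mul_of_nonneg_right (mul_le_mul q1 hB₂ (sq_nonneg _) zero_le_one) he.le
      have q4 : e * D.levi (fun w => Real.log (1 + ∑ j, ‖D.π w j‖ ^ 2)) w v ≤ L := by linarith
      have q5 := mul_le_mul_of_nonneg_left q4 h₂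
      have q6 := mul_nonneg h₁ hL
      linarith
    · by_cases hw : w ∈ shell ζ
      · rw [bc_zero (by
          by_contra hn
          exact hc ⟨by linarith [not_le.1 hn], hw⟩)]
        simp
      · obtain ⟨c, hc'⟩ : ∃ c : ℂ, ζ =ᶠ[𝓝 w] fun _ => c := by
          by_cases hw2 : w ∈ tsupport ζ
          · have hw3 : w ∈ interior {w | ζ w = 1} := by
              by_contra hn
              exact hw ⟨hw2, hn⟩
            exact ⟨1, mem_interior_iff_mem_nhds.1 hw3⟩
          · exact ⟨0, notMem_tsupport_iff_eventuallyEq.1 hw2⟩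
        simp [db_congr _ hc', db_const]

end EtDom

end Vale.Agent.P271
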